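import Vale.Agent.P253H.Tr
import Vale.Agent.P253.Sq

/-!
Let `p = ψ z`, `g = G p (chartAt p p)`, `B = JM (h ∘ (chartAt p).symm) (chartAt p p)`,
`D = JM (chartAt p ∘ ψ) z`, `ξ = v ᵥ* D`. Near `z`, `h ∘ ψ = (h ∘ symm) ∘ (chartAt p ∘ ψ)`, so the vector is
`ξ ᵥ* B` (`fd_JM`, `jm_congr`, `jm_comp`), its pairing with `t` is `ξ ⬝ᵥ (B *ᵥ t)`,
`hf (KK ..) t t = hf g⁻¹ (B *ᵥ t) (B *ᵥ t)` and `nsq (GG ..) v = nsq g ξ` (`nsq_conj`). Right to left:
`dual_cs` for `g⁻¹`. Left to right: `ξ ↦ ξ ᵥ* B` is injective (`Std.imm`; `mfderiv` is `fderiv` of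
`h ∘ symm` at `chartAt p p` by `MDifferentiableAt.mfderiv` and `simp [writtenInExtChartAt]`), so
`t ↦ B *ᵥ t` is surjective (rank, `Matrix.rank_transpose`, or `Matrix.vecMul_injective_iff`,
`Matrix.mulVec_surjective_iff_exists_right_inverse`); take `B *ᵥ t = g *ᵥ star ξ`.
-/

namespace Vale.Agent.P253

open Complex Matrix Metric Set Filter Topology MeasureTheory
open scoped ContDiff ComplexConjugate ComplexOrder ENNReal Manifold

variable {n m N : ℕ} {X : Type} [TopologicalSpace X] [ChartedSpace (E n) X]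
  [IsManifold 𝓘(ℂ, E n) ω X] {G : X → E n → M n} {h : X → E N} {ψ : E m → X} {Ω : Set (E m)}

theorem hdl_hf (B : Matrix (Fin n) (Fin N) ℂ) (K : M n) (t : Fin N → ℂ) :
    hf (Bᴴ * K * B) t t = hf K (B *ᵥ t) (B *ᵥ t) := by
  simp only [hf]
  rw [star_mulVec, ← dotProduct_mulVec, mulVec_mulVec, mulVec_mulVec, Matrix.mul_assoc]

theorem hdl_surj {B : Matrix (Fin n) (Fin N) ℂ} (hB : Function.Injective B.vecMul) :
    Function.Surjective B.mulVec := by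
  intro y
  have h := Matrix.PosDef.mul_conjTranspose_self B hB
  refine ⟨(Bᴴ * (B * Bᴴ)⁻¹) *ᵥ y, ?_⟩
  rw [mulVec_mulVec, ← Matrix.mul_assoc,
    Matrix.mul_nonsing_inv _ (isUnit_iff_ne_zero.2 h.det_pos.ne'), one_mulVec]

theorem hdl_alg {g : M n} (hg : g.PosDef) {B : Matrix (Fin n) (Fin N) ℂ}
    (hB : Function.Injective B.vecMul) (ξ : Fin n → ℂ) (a : ℝ) :
    Dom (Bᴴ * g⁻¹ * B) (ξ ᵥ* B) a ↔ nsq g ξ ≤ a := by
  have hu : IsUnit g.det := isUnit_iff_ne_zero.2 hg.det_pos.ne'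
  have h0 := nsq_nonneg hg ξ
  simp only [Dom, hdl_hf, ← dotProduct_mulVec]
  constructor
  · rintro ⟨ha, h⟩
    obtain ⟨t, ht⟩ := hdl_surj hB (g *ᵥ star ξ)
    have h1 := h t
    have h2 : hf g⁻¹ (g *ᵥ star ξ) (g *ᵥ star ξ) = hf g (star ξ) (star ξ) := by
      simp only [hf]
      rw [mulVec_mulVec, Matrix.nonsing_inv_mul _ hu, one_mulVec, star_mulVec, hg.isHermitian.eq,
        ← dotProduct_mulVec]
    have h3 : ξ ⬝ᵥ g *ᵥ star ξ = hf g (star ξ) (star ξ) := by rw [hf, star_star]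
    rw [ht, h2, h3, ← nsq_eq] at h1
    have h4 : nsq g ξ ≤ ‖hf g (star ξ) (star ξ)‖ := by
      rw [nsq_eq]
      exact re_le_norm _
    have h5 := pow_le_pow_left₀ h0 h4 2
    by_contra hc
    rw [not_le] at hc
    nlinarith
  · intro h
    refine ⟨h0.trans h, fun t => ?_⟩
    have h1 := dual_cs hg.inv ξ (B *ᵥ t)
    rw [Matrix.nonsing_inv_nonsing_inv _ hu] at h1
    exact h1.trans (mul_le_mul_of_nonneg_right h
      (hg.inv.posSemidef.dotProduct_mulVec_nonneg (B *ᵥ t)).1)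

omit [IsManifold 𝓘(ℂ, E n) ω X] in
theorem hdl_inj (hS : Std G h) (p : X) :
    Function.Injective (JM (h ∘ (chartAt (E n) p).symm) (chartAt (E n) p p)).vecMul := by
  have h1 := hS.imm p
  rw [(hS.hol p).mfderiv] at h1
  have h2 : Function.Injective (fderiv ℂ (h ∘ (chartAt (E n) p).symm) (chartAt (E n) p p)) := by
    simp only [writtenInExtChartAt, mfld_simps, fderivWithin_univ] at h1
    exact h1
  intro u w huw
  have h3 : (WithLp.toLp 2 u : E n) = WithLp.toLp 2 w := by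
    refine h2 ?_
    ext i
    rw [fd_JM, fd_JM]
    exact congrFun huw i
  exact WithLp.toLp_injective 2 h3

theorem dom_iff (hS : Std G h) (hψ : HolOn n ψ Ω) {z : E m} (hz : z ∈ Ω) (v : E m) (a : ℝ) :
    Dom (KK G h (ψ z)) (fun j => fderiv ℂ (h ∘ ψ) z v j) a ↔
      nsq (GG G ψ z) (fun i => v i) ≤ a := by
  have hp := mem_chart_source (E n) (ψ z)
  have h1 : h ∘ ψ =ᶠ[𝓝 z] (h ∘ (chartAt (E n) (ψ z)).symm) ∘ (chartAt (E n) (ψ z) ∘ ψ) := by
    filter_upwards [(hψ.open_pre (ψ z)).mem_nhds ⟨hz, hp⟩] with w hw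
    simp only [Function.comp_apply]
    rw [(chartAt (E n) (ψ z)).left_inv hw.2]
  have h2 : JM (h ∘ ψ) z = JM (chartAt (E n) (ψ z) ∘ ψ) z *
      JM (h ∘ (chartAt (E n) (ψ z)).symm) (chartAt (E n) (ψ z) (ψ z)) := by
    rw [jm_congr h1]
    exact jm_comp (hol_symm hS.hol (ψ z) ((chartAt (E n) (ψ z)).map_source hp)) (hψ.chart hz hp)
  have h3 : (fun j => fderiv ℂ (h ∘ ψ) z v j) =
      ((fun i => v i) ᵥ* JM (chartAt (E n) (ψ z) ∘ ψ) z) ᵥ*
        JM (h ∘ (chartAt (E n) (ψ z)).symm) (chartAt (E n) (ψ z) (ψ z)) := by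
    funext j
    rw [fd_JM, h2, vecMul_vecMul]
  rw [h3, GG, nsq_conj, KK]
  exact hdl_alg ((hS.kae.loc (ψ z)).pos _ ((chartAt (E n) (ψ z)).map_source hp)) (hdl_inj hS _) _ a

end Vale.Agent.P253
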