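import Vale.Agent.P253H.Stmt
import Vale.Agent.P253.Calc
import Vale.Agent.P278F.Osg

/-! Semidefinite dual metrics, pull backs, holomorphic maps in charts. -/

namespace Vale.Agent.P253

open Complex Matrix Metric Set Filter Topology MeasureTheory
open scoped ContDiff ComplexOrder Manifold

variable {n m N : ℕ}

/-- A smooth positive semidefinite matrix function on `U`. -/
structure SmP (U : Set ℂ) (K : ℂ → M n) : Prop where
  smooth : ∀ i j, ContDiffOn ℝ ∞ (fun z => K z i j) U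
  pos : ∀ z ∈ U, (K z).PosSemidef

/-- The squared norm of `u` dual to `K` is at most `a`. -/
def Dom (K : M n) (u : Fin n → ℂ) (a : ℝ) : Prop :=
  0 ≤ a ∧ ∀ t, ‖u ⬝ᵥ t‖ ^ 2 ≤ a * (hf K t t).re

/-- Germs with an improved integrability. -/
def JD (K : ℂ → M n) (u : ℂ → Fin n → ℂ) : Prop :=
  ∃ δ ρ : ℝ, 0 < δ ∧ 0 < ρ ∧ ρ ≤ 1 ∧ ∃ a : ℂ → ℝ, AEMeasurable a (volume.restrict (pd ρ)) ∧
    (∀ᵐ z ∂volume.restrict (pd ρ), Dom (K z) (u z) (a z)) ∧
    ∫⁻ z in pd ρ, ENNReal.ofReal (a z * ‖z‖ ^ (-δ)) < ⊤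

/-- The transposed Jacobian matrix. -/
noncomputable def JM (P : E m → E n) (z : E m) : Matrix (Fin m) (Fin n) ℂ :=
  Matrix.of fun a i => fderiv ℂ P z (EuclideanSpace.single a 1) i

lemma fd_JM (P : E m → E n) (z v : E m) (i : Fin n) :
    fderiv ℂ P z v i = ((fun a => v a) ᵥ* JM P z) i := by
  have h : v = ∑ a, v a • EuclideanSpace.single a (1 : ℂ) := by
    ext j
    simp [Finset.sum_apply, Pi.single_apply]
  conv_lhs => rw [h]
  simp [map_sum, JM, vecMul, dotProduct, Finset.sum_apply]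

variable {X : Type} [TopologicalSpace X] [ChartedSpace (E n) X]

/-- The dual metric on the differentials of the components of `h`. -/
noncomputable def KK (G : X → E n → M n) (h : X → E N) (p : X) : M N :=
  (JM (h ∘ (chartAt (E n) p).symm) (chartAt (E n) p p))ᴴ * (G p (chartAt (E n) p p))⁻¹ *
    JM (h ∘ (chartAt (E n) p).symm) (chartAt (E n) p p)

/-- The pull back of the metric. -/
noncomputable def GG (G : X → E n → M n) (ψ : E m → X) (z : E m) : M m :=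
  JM (chartAt (E n) (ψ z) ∘ ψ) z * G (ψ z) (chartAt (E n) (ψ z) (ψ z)) *
    (JM (chartAt (E n) (ψ z) ∘ ψ) z)ᴴ

/-- The standing hypotheses. -/
structure Std (G : X → E n → M n) (h : X → E N) : Prop where
  kae : MKaehler G
  nn : MNonneg G
  hol : MDifferentiable 𝓘(ℂ, E n) 𝓘(ℂ, E N) h
  imm : ∀ x, Function.Injective (mfderiv 𝓘(ℂ, E n) 𝓘(ℂ, E N) h x)

/-- A holomorphic map on an open set. -/
structure HolOn (n : ℕ) [ChartedSpace (E n) X] (ψ : E m → X) (Ω : Set (E m)) : Prop where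
  op : IsOpen Ω
  hol : MDifferentiableOn 𝓘(ℂ, E m) 𝓘(ℂ, E n) ψ Ω

lemma HolOn.at {ψ : E m → X} {Ω : Set (E m)} (h : HolOn n ψ Ω) {z : E m} (hz : z ∈ Ω) :
    MDifferentiableAt 𝓘(ℂ, E m) 𝓘(ℂ, E n) ψ z :=
  (h.hol z hz).mdifferentiableAt (h.op.mem_nhds hz)

lemma HolOn.cont {ψ : E m → X} {Ω : Set (E m)} (h : HolOn n ψ Ω) : ContinuousOn ψ Ω :=
  h.hol.continuousOn

lemma HolOn.open_pre {ψ : E m → X} {Ω : Set (E m)} (h : HolOn n ψ Ω) (x : X) :
    IsOpen (Ω ∩ ψ ⁻¹' (chartAt (E n) x).source) :=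
  h.cont.isOpen_inter_preimage h.op (chartAt (E n) x).open_source

variable [IsManifold 𝓘(ℂ, E n) ω X]

lemma HolOn.chart {ψ : E m → X} {Ω : Set (E m)} (h : HolOn n ψ Ω) {z : E m} (hz : z ∈ Ω) {x : X}
    (hx : ψ z ∈ (chartAt (E n) x).source) : DifferentiableAt ℂ (chartAt (E n) x ∘ ψ) z :=
  mdifferentiableAt_iff_differentiableAt.1
    ((mdifferentiableAt_atlas (I := 𝓘(ℂ, E n)) (chart_mem_atlas (E n) x) hx).comp z (h.at hz))

lemma hol_symm {h : X → E N} (hh : MDifferentiable 𝓘(ℂ, E n) 𝓘(ℂ, E N) h) (x : X) {y : E n}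
    (hy : y ∈ (chartAt (E n) x).target) :
    DifferentiableAt ℂ (h ∘ (chartAt (E n) x).symm) y :=
  mdifferentiableAt_iff_differentiableAt.1 ((hh _).comp y
    (mdifferentiableAt_atlas_symm (I := 𝓘(ℂ, E n)) (chart_mem_atlas (E n) x) hy))

lemma trans_diff (x : X) {y p : X} (hx : p ∈ (chartAt (E n) x).source)
    (hy : p ∈ (chartAt (E n) y).source) :
    DifferentiableAt ℂ (chartAt (E n) x ∘ (chartAt (E n) y).symm) (chartAt (E n) y p) := by
  have h1 := mdifferentiableAt_atlas_symm (I := 𝓘(ℂ, E n)) (chart_mem_atlas (E n) y)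
    ((chartAt (E n) y).map_source hy)
  refine mdifferentiableAt_iff_differentiableAt.1 (MDifferentiableAt.comp _ ?_ h1)
  rw [(chartAt (E n) y).left_inv hy]
  exact mdifferentiableAt_atlas (I := 𝓘(ℂ, E n)) (chart_mem_atlas (E n) x) hx

lemma HolOn.comp_diff {ψ : E m → X} {Ω : Set (E m)} (hψ : HolOn n ψ Ω) {h : X → E N}
    (hh : MDifferentiable 𝓘(ℂ, E n) 𝓘(ℂ, E N) h) {z : E m} (hz : z ∈ Ω) :
    DifferentiableAt ℂ (h ∘ ψ) z :=
  mdifferentiableAt_iff_differentiableAt.1 ((hh _).comp z (hψ.at hz))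

end Vale.Agent.P253
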