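import Vale.Agent.P253H.MaxC

/-!
A pseudoconvex set that contains the Hartogs figure contains the bidisc. Assume `Ωᶜ` nonempty. Fix
`z ∈ bidisc`, `s` with `max (1 - r) ‖z 1‖ < s < 1`, and discs `D t = {!₂[t * z 0, ζ] | ‖ζ‖ ≤ s}`,
`t ∈ [0, 1]`. The set of `!₂[t * z 0, ζ]`, `‖ζ‖ = s` is compact in `Ω`, so `infDist ≥ d > 0` on it. If
`D t ⊆ Ω` then `maxc` for `u ζ = -log (infDist !₂[t * z 0, ζ] Ωᶜ)` (`Pseudoconvex` with
`a = single 1 ρ`, `Real.circleAverage_eq_circleAverage_zero_one`) gives `infDist ≥ d` on `D t`, hence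
`D t' ⊆ Ω` for `|t' - t| < d`. Induct in steps of size `d / 2` from `D 0 ⊆ hartogsFig r`.
-/

namespace Vale.Agent.P253

open Complex Matrix Metric Set Filter Topology MeasureTheory
open scoped ContDiff ComplexConjugate ComplexOrder ENNReal Manifold

variable {n m N : ℕ}

/-- The point with coordinates `w, ζ`. -/
noncomputable def hfill_p (w ζ : ℂ) : E 2 :=
  w • EuclideanSpace.single 0 (1 : ℂ) + ζ • EuclideanSpace.single 1 (1 : ℂ)

theorem hfill_0 (w ζ : ℂ) : hfill_p w ζ 0 = w := by simp [hfill_p]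

theorem hfill_1 (w ζ : ℂ) : hfill_p w ζ 1 = ζ := by simp [hfill_p]

theorem hfill_eta (z : E 2) : hfill_p (z 0) (z 1) = z := by
  ext i
  fin_cases i
  · exact hfill_0 _ _
  · exact hfill_1 _ _

theorem hfill_dist (w w' ζ : ℂ) : dist (hfill_p w ζ) (hfill_p w' ζ) = ‖w - w'‖ := by
  rw [dist_eq_norm, hfill_p, hfill_p, add_sub_add_right_eq_sub, ← sub_smul, norm_smul]
  simp

theorem hfill_line (w c ζ ρ : ℂ) :
    hfill_p w c + ζ • (ρ • EuclideanSpace.single 1 (1 : ℂ) : E 2) = hfill_p w (ρ * ζ + c) := by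
  unfold hfill_p
  module

theorem hfill_max {Ω : Set (E 2)} (hΩ : IsOpen Ω) (hp : Pseudoconvex Ω) (hne : Ωᶜ.Nonempty)
    {w : ℂ} {s d : ℝ} (hs : 0 < s) (hd : 0 < d) (h1 : ∀ ζ : ℂ, ‖ζ‖ ≤ s → hfill_p w ζ ∈ Ω)
    (h2 : ∀ ζ : ℂ, ‖ζ‖ = s → d ≤ infDist (hfill_p w ζ) Ωᶜ) (ζ : ℂ) (hζ : ‖ζ‖ ≤ s) :
    d ≤ infDist (hfill_p w ζ) Ωᶜ := by
  have pos : ∀ ζ : ℂ, ‖ζ‖ ≤ s → 0 < infDist (hfill_p w ζ) Ωᶜ := fun ζ h =>
    (hΩ.isClosed_compl.notMem_iff_infDist_pos hne).1 fun h' => h' (h1 ζ h)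
  have hc : Continuous fun ζ : ℂ => infDist (hfill_p w ζ) Ωᶜ :=
    (continuous_infDist_pt _).comp (by unfold hfill_p; fun_prop)
  have key := maxc (u := fun ζ => -Real.log (infDist (hfill_p w ζ) Ωᶜ)) hs
    (hc.continuousOn.log fun ζ h => (pos ζ (mem_closedBall_zero_iff.1 h)).ne').neg
    (fun c ρ hρ hb => by
      have h3 := hp (hfill_p w c) ((ρ : ℂ) • EuclideanSpace.single 1 (1 : ℂ)) fun ζ h => by
        rw [hfill_line]
        refine h1 _ (mem_closedBall_zero_iff.1 (hb ?_))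
        rw [mem_closedBall_iff_norm, add_sub_cancel_right, norm_mul, Complex.norm_real,
          Real.norm_of_nonneg hρ.le]
        exact mul_le_of_le_one_right hρ.le h
      simp only [hfill_line] at h3
      rw [Real.circleAverage_eq_circleAverage_zero_one]
      exact h3)
    (C := -Real.log d) (fun ζ h => neg_le_neg (Real.log_le_log hd (h2 ζ h))) ζ hζ
  exact (Real.log_le_log_iff hd (pos ζ hζ)).1 (neg_le_neg_iff.1 key)

theorem pc_fill {Ω : Set (E 2)} (hΩ : IsOpen Ω) (hp : Pseudoconvex Ω) {r : ℝ} (h0 : 0 < r)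
    (h1 : hartogsFig r ⊆ Ω) : bidisc ⊆ Ω := by
  intro z hz
  by_contra hzΩ
  have hne : Ωᶜ.Nonempty := ⟨z, hzΩ⟩
  obtain ⟨s, s1, s2⟩ := exists_between (max_lt (show 1 - r < 1 by linarith) hz.2)
  obtain ⟨s3, s4⟩ := max_lt_iff.1 s1
  have hs : 0 < s := (norm_nonneg _).trans_lt s4
  have hw : ∀ t ∈ Icc (0 : ℝ) 1, ‖(t : ℂ) * z 0‖ < 1 := fun t ht => by
    rw [norm_mul, Complex.norm_real, Real.norm_of_nonneg ht.1]
    exact (mul_le_of_le_one_left (norm_nonneg _) ht.2).trans_lt hz.1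
  obtain ⟨d, hd, hK⟩ := ((isCompact_Icc (a := (0 : ℝ)) (b := 1)).prod
    (isCompact_sphere (0 : ℂ) s)).exists_forall_le'
      (f := fun q : ℝ × ℂ => infDist (hfill_p ((q.1 : ℂ) * z 0) q.2) Ωᶜ) (a := 0)
      ((continuous_infDist_pt _).comp (by unfold hfill_p; fun_prop)).continuousOn fun q hq =>
        (hΩ.isClosed_compl.notMem_iff_infDist_pos hne).1 fun h' => h' (h1 (by
          have h2 : ‖q.2‖ = s := mem_sphere_zero_iff_norm.1 hq.2
          refine ⟨?_, ?_, Or.inr ?_⟩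
          · rw [hfill_0]
            exact hw _ hq.1
          · rwa [hfill_1, h2]
          · rwa [hfill_1, h2]))
  have ind : ∀ k : ℕ, ∀ t ∈ Icc (0 : ℝ) 1, t ≤ k * (d / 2) → ∀ ζ : ℂ, ‖ζ‖ ≤ s →
      hfill_p ((t : ℂ) * z 0) ζ ∈ Ω := by
    intro k
    induction k with
    | zero =>
      intro t ht h2 ζ hζ
      obtain rfl : t = 0 := le_antisymm (by simpa using h2) ht.1
      refine h1 ⟨?_, ?_, Or.inl ?_⟩
      · rw [hfill_0]
        exact hw _ ht
      · rw [hfill_1]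
        exact hζ.trans_lt s2
      · rw [hfill_0]
        simpa using h0
    | succ k ih =>
      intro t ht h2 ζ hζ
      by_contra h3
      have ht' : max 0 (t - d / 2) ∈ Icc (0 : ℝ) 1 :=
        ⟨le_max_left _ _, max_le zero_le_one (by linarith [ht.2])⟩
      have h4 : max 0 (t - d / 2) ≤ k * (d / 2) := by
        push_cast at h2
        exact max_le (by positivity) (by linarith)
      have h5 := (hfill_max hΩ hp hne hs hd (ih _ ht' h4)
        (fun ζ h => hK (_, ζ) ⟨ht', mem_sphere_zero_iff_norm.2 h⟩) ζ hζ).trans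
        (infDist_le_dist_of_mem (show hfill_p ((t : ℂ) * z 0) ζ ∈ Ωᶜ from h3))
      rw [hfill_dist, ← sub_mul, norm_mul, ← Complex.ofReal_sub, Complex.norm_real,
        Real.norm_eq_abs] at h5
      have h6 : |max 0 (t - d / 2) - t| ≤ d / 2 := by
        rw [abs_le]
        constructor
        · linarith [le_max_right 0 (t - d / 2)]
        · have : max 0 (t - d / 2) ≤ t := max_le ht.1 (by linarith)
          linarith
      have h7 := mul_le_of_le_one_right (abs_nonneg (max 0 (t - d / 2) - t)) hz.1.le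
      linarith
  obtain ⟨k, hk⟩ := Archimedean.arch (1 : ℝ) (half_pos hd)
  have h8 := ind k 1 ⟨zero_le_one, le_rfl⟩ (by rwa [nsmul_eq_mul] at hk) (z 1) s4.le
  rw [Complex.ofReal_one, one_mul, hfill_eta] at h8
  exact hzΩ h8

end Vale.Agent.P253
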