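import Vale.Agent.P253H.Tr
import Vale.Agent.P253.Fin

/-!
As `fin_mem` in P253/Fin. The path is `γ t = ψ (F ((s k + t * (s l - s k)) * e))`. It is `C¹` on
`Icc 0 1`: `ψ` is `ContMDiffAt` at points of `Ω` (`contMDiffAt_iff_target` or `contMDiffAt_iff`; the map
`chartAt (ψ z) ∘ ψ` is differentiable near `z` by `HolOn.chart`, `HolOn.open_pre`, hence analytic by
`P278F.analyticOnNhd_of_differentiableOn`; restrict scalars to `ℝ`). For `t ∈ Icc 0 1`,
`deriv (chartAt (γ t) ∘ γ) t i = (((s l - s k) * e) • (deriv F _ ᵥ* JM (chartAt (γ t) ∘ ψ) _)) i` (`fd_JM`) and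
`nsq_conj` identify the integrand of `mlen` with `|s l - s k| * √(nsq (GG ..) (deriv F _))`.
-/

namespace Vale.Agent.P253

open Complex Matrix Metric Set Filter Topology MeasureTheory
open scoped ContDiff ComplexConjugate ComplexOrder ENNReal Manifold

variable {n m N : ℕ} {X : Type} [TopologicalSpace X] [ChartedSpace (E n) X]
  [IsManifold 𝓘(ℂ, E n) ω X] {G : X → E n → M n} {h : X → E N} {ψ : E m → X} {Ω : Set (E m)}

lemma hfinh_an (hψ : HolOn n ψ Ω) {z : E m} (hz : z ∈ Ω) :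
    AnalyticAt ℂ (chartAt (E n) (ψ z) ∘ ψ) z := by
  refine P278F.analyticAt_of_eventually ?_
  filter_upwards [(hψ.open_pre (ψ z)).mem_nhds ⟨hz, mem_chart_source (E n) (ψ z)⟩] with w hw
  exact hψ.chart hw.1 hw.2

lemma hfinh_len (hψ : HolOn n ψ Ω) {F : ℂ → E m} (hF : Differentiable ℂ F) {c : ℝ}
    {e : ℂ} (he : ‖e‖ = 1) (hin : ∀ s ∈ Ioo (0 : ℝ) c, F (s * e) ∈ Ω) {a b : ℝ}
    (ha : a ∈ Ioo (0 : ℝ) c) (hb : b ∈ Ioo (0 : ℝ) c) :
    mdist G (ψ (F (a * e))) (ψ (F (b * e))) ≤ ∫⁻ s in Ioo (0 : ℝ) c,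
      ENNReal.ofReal √(nsq (GG G ψ (F (s * e))) fun i => deriv F (s * e) i) := by
  set σ : ℝ → ℝ := fun t => a + t * (b - a) with hσ
  set β : ℝ → E m := fun t => F (σ t * e) with hβ
  have hm : ∀ t ∈ Icc (0 : ℝ) 1, σ t ∈ Ioo (0 : ℝ) c := fun t ht => by
    have h := (convex_Ioo (0 : ℝ) c).add_smul_sub_mem ha hb ht
    simpa only [smul_eq_mul] using h
  have hd : ∀ t, HasDerivAt σ (b - a) t := fun t => by
    have h := ((hasDerivAt_id t).mul_const (b - a)).const_add a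
    rw [one_mul] at h
    exact h
  have hd2 : ∀ t, HasDerivAt β ((((b - a : ℝ) : ℂ) * e) • deriv F (σ t * e)) t := fun t =>
    (hF (σ t * e)).hasDerivAt.scomp t ((hd t).ofReal_comp.mul_const e)
  have hcd : ContDiff ℝ 1 β := by
    refine ((hF.contDiff (n := 1)).restrict_scalars ℝ).comp (ContDiff.mul ?_ contDiff_const)
    exact ofRealCLM.contDiff.comp (f := σ) (contDiff_const.add (contDiff_id.mul contDiff_const))
  have hΩ : ∀ t ∈ Icc (0 : ℝ) 1, β t ∈ Ω := fun t ht => hin _ (hm t ht)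
  have hcm : ContMDiffOn 𝓘(ℝ, ℝ) 𝓘(ℝ, E n) 1 (ψ ∘ β) (Icc 0 1) := by
    intro t ht
    refine ContMDiffAt.contMDiffWithinAt (contMDiffAt_iff_target.2 ⟨?_, ?_⟩)
    · exact (hψ.at (hΩ t ht)).continuousAt.comp hcd.continuous.continuousAt
    · have h1 : ContDiffAt ℝ 1 ((chartAt (E n) (ψ (β t)) ∘ ψ) ∘ β) t :=
        (((hfinh_an hψ (hΩ t ht)).contDiffAt (n := 1)).restrict_scalars ℝ).comp t hcd.contDiffAt
      exact contMDiffAt_iff_contDiffAt.2 h1
  have h0 : (ψ ∘ β) 0 = ψ (F (a * e)) := by simp [hβ, hσ]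
  have h1 : (ψ ∘ β) 1 = ψ (F (b * e)) := by simp [hβ, hσ]
  have hle : mdist G (ψ (F (a * e))) (ψ (F (b * e))) ≤ mlen G (ψ ∘ β) :=
    iInf_le_of_le (ψ ∘ β) (iInf_le_of_le hcm (iInf_le_of_le h0 (iInf_le_of_le h1 le_rfl)))
  refine hle.trans ?_
  have e1 : mlen G (ψ ∘ β) = ∫⁻ t in Icc (0 : ℝ) 1, ENNReal.ofReal |b - a| *
      ENNReal.ofReal √(nsq (GG G ψ (F (σ t * e))) fun i => deriv F (σ t * e) i) := by
    refine setLIntegral_congr_fun measurableSet_Icc fun t ht => ?_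
    have h2 : HasDerivAt (chartAt (E n) ((ψ ∘ β) t) ∘ ψ ∘ β)
        (fderiv ℂ (chartAt (E n) (ψ (β t)) ∘ ψ) (β t)
          ((((b - a : ℝ) : ℂ) * e) • deriv F (σ t * e))) t :=
      ((hfinh_an hψ (hΩ t ht)).differentiableAt.hasFDerivAt.restrictScalars ℝ).comp_hasDerivAt t (hd2 t)
    have h3 : (fderiv ℂ (chartAt (E n) (ψ (β t)) ∘ ψ) (β t) (deriv F (σ t * e))).ofLp =
        (fun i => deriv F (σ t * e) i) ᵥ* JM (chartAt (E n) (ψ (β t)) ∘ ψ) (β t) :=
      funext fun i => fd_JM _ _ _ i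
    simp only
    rw [h2.deriv, ← ENNReal.ofReal_mul (abs_nonneg _), map_smul]
    simp only [PiLp.smul_apply, smul_eq_mul]
    rw [fin_nsq, Real.sqrt_mul (sq_nonneg _), Real.sqrt_sq (norm_nonneg _), norm_mul, he, mul_one,
      norm_real, Real.norm_eq_abs, h3, ← nsq_conj]
    rfl
  rw [e1]
  by_cases hab : b - a = 0
  · simp [hab]
  rw [← lintegral_image_eq_lintegral_abs_deriv_mul measurableSet_Icc
    (fun t _ => (hd t).hasDerivWithinAt)
    (fun t _ u _ h => mul_right_cancel₀ hab (add_left_cancel h))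
    fun s : ℝ => ENNReal.ofReal √(nsq (GG G ψ (F (s * e))) fun i => deriv F (s * e) i)]
  exact lintegral_mono_set (image_subset_iff.2 hm)

theorem finH (hc : MComplete G) (hψ : HolOn n ψ Ω) {F : ℂ → E m} (hF : Differentiable ℂ F)
    {ρ : ℝ} (hρ : 0 < ρ) {e : ℂ} (he : ‖e‖ = 1) (hin : ∀ s ∈ Ioo (0 : ℝ) ρ, F (s * e) ∈ Ω)
    (hi : ∫⁻ s in Ioo (0 : ℝ) ρ,
      ENNReal.ofReal √(nsq (GG G ψ (F (s * e))) fun i => deriv F (s * e) i) < ⊤) :
    ∃ p, Tendsto (fun k : ℕ => ψ (F ((ρ / (k + 2) : ℝ) * e))) atTop (𝓝 p) := by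
  set s : ℕ → ℝ := fun k => ρ / ((k : ℝ) + 2) with hs
  have hs0 : ∀ k, 0 < s k := fun k => by positivity
  have hlt : ∀ k l : ℕ, k < l → s l < s k := fun k l h =>
    div_lt_div_of_pos_left hρ (by positivity) (by have : (k : ℝ) < l := by exact_mod_cast h
                                                  linarith)
  have hρ' : ∀ k, s k < ρ := fun k =>
    div_lt_self hρ (by have : (0 : ℝ) ≤ k := k.cast_nonneg
                       linarith)
  have ht : Tendsto s atTop (𝓝 0) :=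
    tendsto_const_nhds.div_atTop (tendsto_atTop_add_const_right _ _ tendsto_natCast_atTop_atTop)
  have hsub : ∀ k, Ioo 0 (s k) ⊆ Ioo 0 ρ := fun k => Ioo_subset_Ioo_right (hρ' k).le
  have h1 := tendsto_setLIntegral_zero hi.ne (l := atTop) (s := fun k => Ioo 0 (s k)) (by
    have h2 : Tendsto (fun k => ENNReal.ofReal (s k)) atTop (𝓝 0) := by
      simpa using ENNReal.tendsto_ofReal ht
    refine h2.congr fun k => ?_
    rw [Function.comp_apply, Measure.restrict_apply measurableSet_Ioo,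
      inter_eq_left.2 (hsub k), Real.volume_Ioo, sub_zero])
  exact hc (fun k => ψ (F (s k * e))) fun ε hε => by
    obtain ⟨N, hN⟩ := (h1.eventually (gt_mem_nhds hε)).exists
    rw [Measure.restrict_restrict measurableSet_Ioo, inter_eq_left.2 (hsub N)] at hN
    exact ⟨N + 1, fun k hk l hl => (hfinh_len hψ hF he (fun u hu => hin u (hsub N hu))
      ⟨hs0 k, hlt N k hk⟩ ⟨hs0 l, hlt N l hl⟩).trans_lt hN⟩

end Vale.Agent.P253
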