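import Vale.Agent.P253H.Defs

/-!
The pull back of a Kaehler form is closed. `P` is analytic on `V`
(`P278F.analyticOnNhd_of_differentiableOn`), so are the entries of `JM P`. The entry at `a, b` is
`∑ i j, D a i * g (P z) i j * conj (D b j)` plus a constant. Prove product, sum and conjugation rules
for `dz` as in P253/Calc; `dz f c z = fderiv ℂ f z (single c 1)` and `dz (conj f) c z = 0` for
holomorphic `f`; chain rule `dz (φ ∘ P) c z = ∑ k, dz φ k (P z) * D c k` (`fd_wirt`). Then
`dz (entry a b) c = ∑ i j, (∂_c ∂_a P_i) g i j conj (D b j) + ∑ i j k, D a i * D c k * dz (g i j) k *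
conj (D b j)` is symmetric in `a, c` (symmetry of second derivatives, `IsKaehler.closed`).
-/

namespace Vale.Agent.P253

open Complex Matrix Metric Set Filter Topology MeasureTheory
open scoped ContDiff ComplexConjugate ComplexOrder ENNReal Manifold

variable {n m N : ℕ}

lemma hpk_sI (c : Fin m) :
    (EuclideanSpace.single c I : E m) = I • EuclideanSpace.single c (1 : ℂ) := by
  ext j
  simp [Pi.single_apply]

lemma hpk_fd {f : E m → ℂ} {z : E m} (h : DifferentiableAt ℂ f z) (v : E m) :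
    fderiv ℝ f z v = fderiv ℂ f z v := by
  rw [(h.hasFDerivAt.restrictScalars ℝ).fderiv]
  rfl

lemma hpk_holo {f : E m → ℂ} {z : E m} (h : DifferentiableAt ℂ f z) (c : Fin m) :
    dz f c z = fderiv ℂ f z (EuclideanSpace.single c 1) := by
  rw [dz, hpk_fd h, hpk_fd h, hpk_sI, map_smul, smul_eq_mul]
  linear_combination (-fderiv ℂ f z (EuclideanSpace.single c 1) / 2) * I_mul_I

lemma hpk_conj {f : E m → ℂ} {z : E m} (h : DifferentiableAt ℂ f z) (c : Fin m) :
    dz (fun w => conj (f w)) c z = 0 := by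
  rw [dz, fd_conj, fd_conj, hpk_fd h, hpk_fd h, hpk_sI, map_smul, smul_eq_mul, map_mul, conj_I]
  linear_combination (conj (fderiv ℂ f z (EuclideanSpace.single c 1)) / 2) * I_mul_I

lemma hpk_mul {f g : E m → ℂ} {z : E m} (hf : DifferentiableAt ℝ f z)
    (hg : DifferentiableAt ℝ g z) (c : Fin m) :
    dz (fun w => f w * g w) c z = dz f c z * g z + f z * dz g c z := by
  simp only [dz, fderiv_fun_mul hf hg, _root_.add_apply, _root_.smul_apply, smul_eq_mul]
  ring

lemma hpk_sum {ι : Type} (s : Finset ι) {F : ι → E m → ℂ} {z : E m}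
    (h : ∀ i ∈ s, DifferentiableAt ℝ (F i) z) (c : Fin m) :
    dz (fun w => ∑ i ∈ s, F i w) c z = ∑ i ∈ s, dz (F i) c z := by
  simp only [dz, fderiv_fun_sum h, ContinuousLinearMap.sum_apply, Finset.mul_sum,
    ← Finset.sum_sub_distrib, Finset.sum_div]

lemma hpk_const (f : E m → ℂ) (a : ℂ) (c : Fin m) (z : E m) :
    dz (fun w => f w + a) c z = dz f c z := by
  simp only [dz, fderiv_add_const]

lemma hpk_chain {φ : E n → ℂ} {P : E m → E n} {z : E m} (hφ : DifferentiableAt ℝ φ (P z))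
    (hP : DifferentiableAt ℂ P z) (c : Fin m) :
    dz (fun w => φ (P w)) c z = ∑ k, dz φ k (P z) * JM P z c k := by
  have h1 : ∀ v : E m, fderiv ℝ (fun w => φ (P w)) z v = fderiv ℝ φ (P z) (fderiv ℂ P z v) :=
    fun v => congrArg (fun L : E m →L[ℝ] ℂ => L v)
      (hφ.hasFDerivAt.comp z (hP.hasFDerivAt.restrictScalars ℝ)).fderiv
  rw [dz, h1, h1, hpk_sI, map_smul, fd_wirt, fd_wirt, Finset.mul_sum, ← Finset.sum_sub_distrib,
    Finset.sum_div]
  refine Finset.sum_congr rfl fun k _ => ?_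
  simp only [PiLp.smul_apply, smul_eq_mul, map_mul, conj_I, JM, of_apply]
  linear_combination (-(dz φ k (P z) * fderiv ℂ P z (EuclideanSpace.single c 1) k) / 2 +
    dzb φ k (P z) * conj (fderiv ℂ P z (EuclideanSpace.single c 1) k) / 2) * I_mul_I

lemma hpk_J {V : Set (E m)} (hV : IsOpen V) {P : E m → E n} (hP : ContDiffOn ℂ ω P V)
    (a : Fin m) (i : Fin n) : ContDiffOn ℂ ω (fun z => JM P z a i) V :=
  (EuclideanSpace.proj (𝕜 := ℂ) i).contDiff.comp_contDiffOn
    ((hP.fderiv_of_isOpen hV (m := ω) le_top).clm_apply contDiffOn_const)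

lemma hpk_symm {P : E m → E n} {z : E m} (hP : ContDiffAt ℂ ω P z) (a c : Fin m) (i : Fin n) :
    fderiv ℂ (fun w => JM P w a i) z (EuclideanSpace.single c 1) =
      fderiv ℂ (fun w => JM P w c i) z (EuclideanSpace.single a 1) := by
  have h2 : DifferentiableAt ℂ (fderiv ℂ P) z :=
    (hP.fderiv_right (m := 1) le_top).differentiableAt one_ne_zero
  have h3 : ∀ (a : Fin m) (v : E m), fderiv ℂ (fun w => JM P w a i) z v =
      fderiv ℂ (fderiv ℂ P) z v (EuclideanSpace.single a 1) i := fun a v =>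
    congrArg (fun L : E m →L[ℂ] ℂ => L v) (((EuclideanSpace.proj (𝕜 := ℂ) i).comp
      (ContinuousLinearMap.apply ℂ (E n) (EuclideanSpace.single a (1 : ℂ)))).hasFDerivAt.comp z
        h2.hasFDerivAt).fderiv
  rw [h3, h3, (hP.isSymmSndFDerivAt le_top).eq]

lemma hpk_ent (J : Matrix (Fin m) (Fin n) ℂ) (G : M n) (a b : Fin m) :
    (J * G * Jᴴ + 1 : M m) a b = ∑ j, (∑ i, J a i * G i j) * conj (J b j) + (1 : M m) a b := rfl

theorem pull_kahler {V : Set (E m)} {V' : Set (E n)} (hV : IsOpen V) (hV' : IsOpen V')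
    {g : E n → M n} (hg : IsKaehler V' g) {P : E m → E n} (hP : DifferentiableOn ℂ P V)
    (hm : ∀ z ∈ V, P z ∈ V') :
    IsKaehler V fun z => JM P z * g (P z) * (JM P z)ᴴ + 1 := by
  have hC : ContDiffOn ℂ ω P V :=
    (P278F.analyticOnNhd_of_differentiableOn hV hP).contDiffOn hV.uniqueDiffOn
  have hJ : ∀ a i, ContDiffOn ℝ ∞ (fun z => JM P z a i) V := fun a i =>
    ((hpk_J hV hC a i).restrict_scalars ℝ).of_le le_top
  have hJ' : ∀ a i, ContDiffOn ℝ ∞ (fun z => conj (JM P z a i)) V := fun a i =>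
    conjCLE.contDiff.comp_contDiffOn (hJ a i)
  have hG : ∀ i j, ContDiffOn ℝ ∞ (fun z => g (P z) i j) V := fun i j =>
    (hg.smooth i j).comp ((hC.restrict_scalars ℝ).of_le le_top) hm
  have hS : ∀ a j, ContDiffOn ℝ ∞ (fun z => ∑ i, JM P z a i * g (P z) i j) V := fun a j =>
    ContDiffOn.sum fun i _ => (hJ a i).mul (hG i j)
  refine ⟨fun a b => ?_, fun x hx => ?_, fun x hx a b c => ?_⟩
  · simp only [hpk_ent]
    exact (ContDiffOn.sum fun j _ => (hS a j).mul (hJ' b j)).add contDiffOn_const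
  · exact PosDef.posSemidef_add
      ((hg.pos _ (hm x hx)).posSemidef.mul_mul_conjTranspose_same _) PosDef.one
  have hx' := hV.mem_nhds hx
  have hd : ∀ a i, DifferentiableAt ℂ (fun z => JM P z a i) x := fun a i =>
    ((hpk_J hV hC a i).contDiffAt hx').differentiableAt (by simp)
  have key : ∀ a c, dz (fun y => (JM P y * g (P y) * (JM P y)ᴴ + 1 : M m) a b) c x =
      ∑ j, (∑ i, fderiv ℂ (fun w => JM P w a i) x (EuclideanSpace.single c 1) * g (P x) i j +
        ∑ i, ∑ k, JM P x a i * JM P x c k * dz (fun y => g y i j) k (P x)) *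
          conj (JM P x b j) := fun a c => by
    simp only [hpk_ent]
    rw [hpk_const, hpk_sum _ fun j _ => diffAt hV ((hS a j).mul (hJ' b j)) hx]
    refine Finset.sum_congr rfl fun j _ => ?_
    rw [hpk_mul (diffAt hV (hS a j) hx) (diffAt hV (hJ' b j) hx), hpk_conj (hd b j), mul_zero,
      add_zero, hpk_sum _ fun i _ => diffAt hV ((hJ a i).mul (hG i j)) hx,
      ← Finset.sum_add_distrib]
    congr 1
    refine Finset.sum_congr rfl fun i _ => ?_
    rw [hpk_mul (diffAt hV (hJ a i) hx) (diffAt hV (hG i j) hx), hpk_holo (hd a i),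
      hpk_chain (φ := fun y => g y i j) (diffAt hV' (hg.smooth i j) (hm x hx))
        (hP.differentiableAt hx'), Finset.mul_sum]
    congr 1
    exact Finset.sum_congr rfl fun k _ => by ring
  rw [key, key]
  refine Finset.sum_congr rfl fun j _ => ?_
  congr 2
  · exact Finset.sum_congr rfl fun i _ => by rw [hpk_symm (hC.contDiffAt hx')]
  · rw [Finset.sum_comm]
    refine Finset.sum_congr rfl fun i _ => Finset.sum_congr rfl fun k _ => ?_
    rw [hg.closed _ (hm x hx) k j i]
    ring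

end Vale.Agent.P253
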