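import Vale.Agent.P253H.KL
import Vale.Agent.P253H.PK

/-!
`IsKaehler` is a local property: near `z ∈ Ω` use the chart at `x = ψ z`, the open set
`Ω ∩ ψ ⁻¹' source` (`HolOn.open_pre`), `gg_loc` and `pull_kahler` with `P = chartAt x ∘ ψ`
(`contDiffOn_of_locally_contDiffOn` or pointwise `ContDiffAt.congr_of_eventuallyEq`,
`Filter.EventuallyEq.fderiv_eq`). Semidefinite: `Matrix.PosSemidef.mul_mul_conjTranspose_same`.
-/

namespace Vale.Agent.P253

open Complex Matrix Metric Set Filter Topology MeasureTheory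
open scoped ContDiff ComplexConjugate ComplexOrder ENNReal Manifold

variable {n m N : ℕ} {X : Type} [TopologicalSpace X] [ChartedSpace (E n) X]
  [IsManifold 𝓘(ℂ, E n) ω X] {G : X → E n → M n} {h : X → E N} {ψ : E m → X} {Ω : Set (E m)}

theorem hgk_loc {g : E m → M m} (h : ∀ z ∈ Ω, ∃ (U : Set (E m)) (g' : E m → M m), IsOpen U ∧
    z ∈ U ∧ IsKaehler U g' ∧ ∀ y ∈ U, g y = g' y) : IsKaehler Ω g := by
  refine ⟨fun i j z hz => ?_, fun z hz => ?_, fun z hz i j k => ?_⟩ <;>
    obtain ⟨U, g', h1, h2, h3, h4⟩ := h z hz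
  · refine (((h3.smooth i j).contDiffAt (h1.mem_nhds h2)).congr_of_eventuallyEq
      ?_).contDiffWithinAt
    filter_upwards [h1.mem_nhds h2] with y hy
    rw [h4 y hy]
  · rw [h4 z h2]
    exact h3.pos z h2
  · have e : ∀ a b, (fun y => g y a b) =ᶠ[𝓝 z] fun y => g' y a b := fun a b => by
      filter_upwards [h1.mem_nhds h2] with y hy
      rw [h4 y hy]
    have := h3.closed z h2 i j k
    simp only [dz, (e _ _).fderiv_eq] at this ⊢
    exact this

theorem gg_kahler (hG : MKaehler G) (hψ : HolOn n ψ Ω) :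
    IsKaehler Ω (fun z => GG G ψ z + 1) ∧ ∀ z, (GG G ψ z).PosSemidef := by
  exact ⟨hgk_loc fun z hz => ⟨_, _, hψ.open_pre (ψ z), ⟨hz, mem_chart_source _ _⟩,
    pull_kahler (hψ.open_pre (ψ z)) (chartAt (E n) (ψ z)).open_target (hG.loc (ψ z))
      (P := chartAt (E n) (ψ z) ∘ ψ) (fun y hy => (hψ.chart hy.1 hy.2).differentiableWithinAt)
      (fun y hy => (chartAt (E n) (ψ z)).map_source hy.2),
    fun y hy => congrArg (· + 1) (gg_loc hG hψ hy.1 hy.2)⟩, fun z =>
    ((hG.loc _).pos _ (mem_chart_target _ _)).posSemidef.mul_mul_conjTranspose_same _⟩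

end Vale.Agent.P253
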