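import Vale.Agent.P253H.Defs

/-! The classical Hartogs extension. -/

namespace Vale.Agent.P253

open Complex Matrix Metric Set Filter Topology MeasureTheory
open scoped ContDiff ComplexConjugate ComplexOrder ENNReal Manifold

variable {n m N : ℕ}

theorem hhar_par {H : E 2 × ℂ → E N} {W : Set (E 2 × ℂ)} (hH : AnalyticOnNhd ℂ H W)
    {U : Set (E 2)} (hU : IsOpen U) {s : ℝ} (hW : ∀ z ∈ U, ∀ t, (z, circleMap 0 s t) ∈ W) :
    DifferentiableOn ℂ (fun z => ∮ ζ in C(0, s), H (z, ζ)) U := by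
  intro z0 hz0
  obtain ⟨ε, hε, hb⟩ := nhds_basis_closedBall.mem_iff.1 (hU.mem_nhds hz0)
  have hm : Continuous fun p : E 2 × ℝ => (p.1, circleMap 0 s p.2) := by fun_prop
  have hc : Continuous fun p : E 2 × ℝ => circleMap 0 s p.2 * I := by fun_prop
  have hM : MapsTo (fun p : E 2 × ℝ => (p.1, circleMap 0 s p.2)) (U ×ˢ univ) W :=
    fun p hp => hW p.1 hp.1 p.2
  have c0 : ContinuousOn (fun p : E 2 × ℝ => (circleMap 0 s p.2 * I) •
      H (p.1, circleMap 0 s p.2)) (U ×ˢ univ) :=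
    hc.continuousOn.smul (hH.continuousOn.comp hm.continuousOn hM)
  have c1 : ContinuousOn (fun p : E 2 × ℝ => (circleMap 0 s p.2 * I) •
      (fderiv ℂ H (p.1, circleMap 0 s p.2)).comp (ContinuousLinearMap.inl ℂ (E 2) ℂ))
      (U ×ˢ univ) :=
    hc.continuousOn.smul ((hH.fderiv.continuousOn.comp hm.continuousOn hM).clm_comp
      continuousOn_const)
  have sl : ∀ {Y : Type} [TopologicalSpace Y] {G : E 2 × ℝ → Y}, ContinuousOn G (U ×ˢ univ) →
      ∀ x ∈ U, Continuous fun t => G (x, t) := fun h x hx =>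
    h.comp_continuous (by fun_prop) fun t => ⟨hx, mem_univ t⟩
  obtain ⟨B, hB⟩ := ((isCompact_closedBall z0 ε).prod (isCompact_uIcc (a := (0 : ℝ))
    (b := 2 * Real.pi))).exists_bound_of_continuousOn (c1.mono (prod_mono hb (subset_univ _)))
  simp only [circleIntegral, deriv_circleMap]
  refine (intervalIntegral.hasFDerivAt_integral_of_dominated_of_fderiv_le (𝕜 := ℂ)
    (F' := fun x t => (circleMap 0 s t * I) •
      (fderiv ℂ H (x, circleMap 0 s t)).comp (ContinuousLinearMap.inl ℂ (E 2) ℂ))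
    (bound := fun _ => B) (closedBall_mem_nhds z0 hε) ?_ ((sl c0 z0 hz0).intervalIntegrable _ _)
    (sl c1 z0 hz0).aestronglyMeasurable (Eventually.of_forall fun t ht x hx => ?_)
    intervalIntegrable_const
    (Eventually.of_forall fun t _ x hx => ?_)).differentiableAt.differentiableWithinAt
  · filter_upwards [hU.mem_nhds hz0] with x hx using (sl c0 x hx).aestronglyMeasurable
  · exact hB (x, t) ⟨hx, uIoc_subset_uIcc ht⟩
  · have h1 := (hH _ (hW x (hb hx) t)).differentiableAt.hasFDerivAt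
    have h2 := hasFDerivAt_prodMk_left (𝕜 := ℂ) x (circleMap 0 s t)
    exact (HasFDerivAt.comp (f := fun e : E 2 => (e, circleMap 0 s t)) x h1 h2).const_smul
      (circleMap 0 s t * I)

/-- The point with given coordinates. -/
noncomputable def hhar_j (a b : ℂ) : E 2 :=
  a • EuclideanSpace.single 0 1 + b • EuclideanSpace.single 1 1

theorem hhar_0 (a b : ℂ) : hhar_j a b 0 = a := by simp [hhar_j]

theorem hhar_1 (a b : ℂ) : hhar_j a b 1 = b := by simp [hhar_j]

theorem hhar_self (z : E 2) : hhar_j (z 0) (z 1) = z := by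
  ext i
  fin_cases i
  · exact hhar_0 _ _
  · exact hhar_1 _ _

theorem hhar_lt (i : Fin 2) (c : ℝ) : IsOpen {z : E 2 | ‖z i‖ < c} :=
  isOpen_lt (by fun_prop) continuous_const

theorem hhar_gt (i : Fin 2) (c : ℝ) : IsOpen {z : E 2 | c < ‖z i‖} :=
  isOpen_lt continuous_const (by fun_prop)

theorem hhar_open (r : ℝ) : IsOpen (hartogsFig r) :=
  (hhar_lt 0 1).inter ((hhar_lt 1 1).inter ((hhar_lt 0 r).union (hhar_gt 1 (1 - r))))

theorem hartogs {r : ℝ} (h0 : 0 < r) (h1 : r < 1) {Φ : E 2 → E N}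
    (hΦ : DifferentiableOn ℂ Φ (hartogsFig r)) :
    ∃ Ψ : E 2 → E N, DifferentiableOn ℂ Ψ bidisc ∧ EqOn Ψ Φ (hartogsFig r) := by
  obtain ⟨s, s0, s1, s2⟩ : ∃ s : ℝ, 0 < s ∧ s < 1 ∧ 1 - r < s :=
    ⟨1 - r / 2, by linarith, by linarith, by linarith⟩
  have hU : IsOpen {z : E 2 | ‖z 0‖ < 1 ∧ ‖z 1‖ < s} :=
    (hhar_lt 0 1).inter (hhar_lt 1 s)
  have hj : Differentiable ℂ fun p : E 2 × ℂ => hhar_j (p.1 0) p.2 := by
    unfold hhar_j
    fun_prop
  have hs : Differentiable ℂ fun p : E 2 × ℂ => p.2 - p.1 1 := by fun_prop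
  have hW : IsOpen {p : E 2 × ℂ | p.2 - p.1 1 ≠ 0 ∧ hhar_j (p.1 0) p.2 ∈ hartogsFig r} :=
    (isOpen_ne_fun hs.continuous continuous_const).inter ((hhar_open r).preimage hj.continuous)
  have hH := P278F.analyticOnNhd_of_differentiableOn hW
    (f := fun p : E 2 × ℂ => (p.2 - p.1 1)⁻¹ • Φ (hhar_j (p.1 0) p.2))
    ((hs.differentiableOn.inv fun p hp => hp.1).smul
      (hΦ.comp hj.differentiableOn fun p hp => hp.2))
  have hC := (hhar_par hH hU (s := s) fun z hz t => by
    have hn : ‖circleMap 0 s t‖ = s := by rw [norm_circleMap_zero, abs_of_pos s0]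
    refine ⟨sub_ne_zero.2 fun e => ?_, ?_⟩
    · have e' : circleMap 0 s t = z 1 := e
      exact hz.2.ne (e' ▸ hn)
    · refine ⟨?_, ?_, Or.inr ?_⟩ <;> simp only [hhar_0, hhar_1, hn]
      exacts [hz.1, s1, s2]).const_smul (2 * Real.pi * I : ℂ)⁻¹
  set C : E 2 → E N := (2 * Real.pi * I : ℂ)⁻¹ •
    fun z => ∮ ζ in C(0, s), (ζ - z 1)⁻¹ • Φ (hhar_j (z 0) ζ) with hCd
  have e1 : ∀ z : E 2, ‖z 0‖ < r → ‖z 1‖ < s → C z = Φ z := fun z a b => by
    have hd : DifferentiableOn ℂ (fun ζ => Φ (hhar_j (z 0) ζ)) (closedBall 0 s) := by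
      refine hΦ.comp (Differentiable.differentiableOn (by unfold hhar_j; fun_prop)) fun ζ hζ => ?_
      refine ⟨?_, ?_, Or.inl ?_⟩ <;> simp only [hhar_0, hhar_1]
      exacts [a.trans h1, (mem_closedBall_zero_iff.1 hζ).trans_lt s1, a]
    have := hd.circleIntegral_sub_inv_smul (mem_ball_zero_iff.2 b)
    rw [hCd, Pi.smul_apply, this, hhar_self, inv_smul_smul₀ two_pi_I_ne_zero]
  have e2 : ∀ z ∈ hartogsFig r, ‖z 1‖ < s → C z = Φ z := fun z hz b => by
    rcases hz.2.2 with a | a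
    · exact e1 z a b
    have hl : Differentiable ℂ fun w => hhar_j w (z 1) := by
      unfold hhar_j
      fun_prop
    have a1 : AnalyticOnNhd ℂ (fun w => C (hhar_j w (z 1))) (ball 0 1) := by
      refine (hC.comp hl.differentiableOn fun w hw => ?_).analyticOnNhd isOpen_ball
      refine ⟨?_, ?_⟩ <;> simp only [hhar_0, hhar_1]
      exacts [mem_ball_zero_iff.1 hw, b]
    have a2 : AnalyticOnNhd ℂ (fun w => Φ (hhar_j w (z 1))) (ball 0 1) := by
      refine (hΦ.comp hl.differentiableOn fun w hw => ?_).analyticOnNhd isOpen_ball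
      refine ⟨?_, ?_, Or.inr ?_⟩ <;> simp only [hhar_0, hhar_1]
      exacts [mem_ball_zero_iff.1 hw, hz.2.1, a]
    have := a1.eqOn_of_preconnected_of_eventuallyEq a2 (convex_ball 0 1).isPreconnected
      (mem_ball_self one_pos) (by
        filter_upwards [ball_mem_nhds (0 : ℂ) h0] with w hw
        exact e1 _ (by rw [hhar_0]; exact mem_ball_zero_iff.1 hw) (by rwa [hhar_1]))
      (mem_ball_zero_iff.2 hz.1)
    simpa only [hhar_self] using this
  have e3 : EqOn (fun z : E 2 => if ‖z 1‖ < s then C z else Φ z) Φ (hartogsFig r) := fun z hz => by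
    dsimp only
    split_ifs with b
    · exact e2 z hz b
    · rfl
  refine ⟨_, fun z hz => DifferentiableAt.differentiableWithinAt ?_, e3⟩
  by_cases b : ‖z 1‖ < s
  · have hn := hU.mem_nhds (x := z) ⟨hz.1, b⟩
    refine (hC.differentiableAt hn).congr_of_eventuallyEq ?_
    filter_upwards [hn] with y hy using if_pos hy.2
  · have hn := (hhar_open r).mem_nhds (x := z) ⟨hz.1, hz.2, Or.inr (s2.trans_le (not_lt.1 b))⟩
    exact (hΦ.differentiableAt hn).congr_of_eventuallyEq (e3.eventuallyEq_of_mem hn)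

end Vale.Agent.P253
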