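import Vale.Agent.P253H.Defs

/-!
The module `JD K` (compare P253/JP). `Dom K u a → Dom K v b → Dom K (u + v) (2 * a + 2 * b)`,
`Dom K u a → ‖c‖ ≤ B → Dom K (c • u) (B ^ 2 * a)`; monotone in `ρ` (`ae_restrict_of_ae_restrict_of_subset`,
`AEMeasurable.mono_set`, `lintegral_mono_set`) and in `δ`.
-/

namespace Vale.Agent.P253

open Complex Matrix Metric Set Filter Topology MeasureTheory
open scoped ContDiff ComplexConjugate ComplexOrder ENNReal Manifold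

variable {n m N : ℕ}

theorem dom_add {K : M n} (hK : K.PosSemidef) {u v : Fin n → ℂ} {a b : ℝ} (hu : Dom K u a)
    (hv : Dom K v b) : Dom K (u + v) (2 * a + 2 * b) := by
  refine ⟨by linarith [hu.1, hv.1], fun t => ?_⟩
  have h1 := hu.2 t
  have h2 := hv.2 t
  have h3 : ‖(u + v) ⬝ᵥ t‖ ≤ ‖u ⬝ᵥ t‖ + ‖v ⬝ᵥ t‖ := by
    rw [add_dotProduct]
    exact norm_add_le _ _
  have h4 := pow_le_pow_left₀ (norm_nonneg _) h3 2
  have _ := hK
  nlinarith [sq_nonneg (‖u ⬝ᵥ t‖ - ‖v ⬝ᵥ t‖)]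

theorem dom_smul {K : M n} (hK : K.PosSemidef) {u : Fin n → ℂ} {a B : ℝ} (hu : Dom K u a) {c : ℂ}
    (hc : ‖c‖ ≤ B) : Dom K (c • u) (B ^ 2 * a) := by
  refine ⟨mul_nonneg (sq_nonneg _) hu.1, fun t => ?_⟩
  have _ := hK
  rw [smul_dotProduct, norm_smul, mul_pow, mul_assoc]
  exact mul_le_mul (pow_le_pow_left₀ (norm_nonneg _) hc 2) (hu.2 t) (sq_nonneg _) (sq_nonneg _)

lemma hjdp_sub {r s : ℝ} (h : r ≤ s) : pd r ⊆ pd s := fun _ hz =>
  mem_pd.2 ⟨(mem_pd.1 hz).1.trans_le h, (mem_pd.1 hz).2⟩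

lemma hjdp_mono (a : ℂ → ℝ) {δ δ' ρ ρ' : ℝ} (hδ : δ' ≤ δ) (hρ : ρ' ≤ ρ) (h1 : ρ ≤ 1) :
    ∫⁻ z in pd ρ', ENNReal.ofReal (a z * ‖z‖ ^ (-δ')) ≤
      ∫⁻ z in pd ρ, ENNReal.ofReal (a z * ‖z‖ ^ (-δ)) := by
  refine (lintegral_mono_set (hjdp_sub hρ)).trans
    (setLIntegral_mono' (pd_open ρ).measurableSet fun z hz => ?_)
  have hz' := mem_pd.1 hz
  rcases le_total 0 (a z) with h0 | h0
  · refine ENNReal.ofReal_le_ofReal (mul_le_mul_of_nonneg_left ?_ h0)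
    exact Real.rpow_le_rpow_of_exponent_ge (norm_pos_iff.2 hz'.2) (by linarith [hz'.1])
      (by linarith)
  · rw [ENNReal.ofReal_of_nonpos
      (mul_nonpos_of_nonpos_of_nonneg h0 (Real.rpow_nonneg (norm_nonneg z) _))]
    exact zero_le

lemma hjdp_congr {K : ℂ → M n} {u v : ℂ → Fin n → ℂ} {r : ℝ} (hr : 0 < r)
    (e : ∀ z ∈ pd r, u z = v z) (hu : JD K u) : JD K v := by
  obtain ⟨δ, ρ, hδ, hρ, h1, a, ma, da, ia⟩ := hu
  refine ⟨δ, min ρ r, hδ, lt_min hρ hr, (min_le_left _ _).trans h1, a,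
    ma.mono_set (hjdp_sub (min_le_left ρ r)), ?_,
    (hjdp_mono a (le_refl δ) (min_le_left ρ r) h1).trans_lt ia⟩
  filter_upwards [ae_restrict_of_ae_restrict_of_subset (hjdp_sub (min_le_left ρ r)) da,
    ae_restrict_mem (pd_open (min ρ r)).measurableSet] with z hz hm
  rwa [← e z (hjdp_sub (min_le_right ρ r) hm)]

theorem jd_props {K : ℂ → M n} (h : SmP (pd 1) K) : JD K 0 ∧
    (∀ u v, JD K u → JD K v → JD K (u + v)) ∧
    (∀ (a : ℂ → ℂ) u, AnalyticAt ℂ a 0 → JD K u → JD K fun z => a z • u z) ∧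
    (∀ u v, u =ᶠ[𝓝 0] v → JD K u → JD K v) ∧
    ∀ u v, (∀ z ∈ pd 1, u z = v z) → JD K u → JD K v := by
  refine ⟨⟨1, 1, one_pos, one_pos, le_rfl, fun _ => 0, aemeasurable_const,
    Eventually.of_forall fun z => ⟨le_rfl, fun t => by simp⟩, by simp⟩, ?_, ?_, ?_,
    fun u v e hu => hjdp_congr one_pos e hu⟩
  · rintro u v ⟨δ, ρ, hδ, hρ, h1, a, ma, da, ia⟩ ⟨δ', ρ', hδ', hρ', h1', b, mb, db, ib⟩
    have h2 : min ρ ρ' ≤ 1 := (min_le_left _ _).trans h1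
    have ma' := ma.mono_set (hjdp_sub (min_le_left ρ ρ'))
    have mb' := mb.mono_set (hjdp_sub (min_le_right ρ ρ'))
    have ia' := (hjdp_mono a (min_le_left δ δ') (min_le_left ρ ρ') h1).trans_lt ia
    have ib' := (hjdp_mono b (min_le_right δ δ') (min_le_right ρ ρ') h1').trans_lt ib
    refine ⟨min δ δ', min ρ ρ', lt_min hδ hδ', lt_min hρ hρ', h2, fun z => 2 * a z + 2 * b z,
      (ma'.const_mul 2).add (mb'.const_mul 2), ?_, ?_⟩
    · filter_upwards [ae_restrict_of_ae_restrict_of_subset (hjdp_sub (min_le_left ρ ρ')) da,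
        ae_restrict_of_ae_restrict_of_subset (hjdp_sub (min_le_right ρ ρ')) db,
        ae_restrict_mem (pd_open (min ρ ρ')).measurableSet] with z h3 h4 hm
      exact dom_add (h.pos z (hjdp_sub h2 hm)) h3 h4
    · have k : ∫⁻ z in pd (min ρ ρ'), ENNReal.ofReal ((2 * a z + 2 * b z) * ‖z‖ ^ (-min δ δ')) ≤
          ∫⁻ z in pd (min ρ ρ'), (2 * ENNReal.ofReal (a z * ‖z‖ ^ (-min δ δ')) +
            2 * ENNReal.ofReal (b z * ‖z‖ ^ (-min δ δ'))) := by
        refine lintegral_mono fun z => ?_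
        have e2 : (2 : ℝ≥0∞) = ENNReal.ofReal 2 := by simp
        rw [e2, ← ENNReal.ofReal_mul zero_le_two, ← ENNReal.ofReal_mul zero_le_two]
        exact le_trans (ENNReal.ofReal_le_ofReal (le_of_eq (by ring))) ENNReal.ofReal_add_le
      have mw : AEMeasurable (fun z : ℂ => a z * ‖z‖ ^ (-min δ δ'))
          (volume.restrict (pd (min ρ ρ'))) := ma'.mul (measurable_norm.pow_const _).aemeasurable
      refine k.trans_lt ?_
      rw [lintegral_add_left' (mw.ennreal_ofReal.const_mul 2),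
        lintegral_const_mul' _ _ ENNReal.ofNat_ne_top, lintegral_const_mul' _ _ ENNReal.ofNat_ne_top]
      exact ENNReal.add_lt_top.2 ⟨ENNReal.mul_lt_top ENNReal.ofNat_lt_top ia',
        ENNReal.mul_lt_top ENNReal.ofNat_lt_top ib'⟩
  · rintro c u hc ⟨δ, ρ, hδ, hρ, h1, a, ma, da, ia⟩
    obtain ⟨r, hr, hb⟩ := Metric.eventually_nhds_iff_ball.1
      (hc.continuousAt.norm.eventually (gt_mem_nhds (lt_add_one ‖c 0‖)))
    have h2 : min ρ r ≤ 1 := (min_le_left _ _).trans h1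
    have ia' := (hjdp_mono a (le_refl δ) (min_le_left ρ r) h1).trans_lt ia
    refine ⟨δ, min ρ r, hδ, lt_min hρ hr, h2, fun z => (‖c 0‖ + 1) ^ 2 * a z,
      (ma.mono_set (hjdp_sub (min_le_left ρ r))).const_mul _, ?_, ?_⟩
    · filter_upwards [ae_restrict_of_ae_restrict_of_subset (hjdp_sub (min_le_left ρ r)) da,
        ae_restrict_mem (pd_open (min ρ r)).measurableSet] with z h3 hm
      exact dom_smul (h.pos z (hjdp_sub h2 hm)) h3 (hb z (hjdp_sub (min_le_right ρ r) hm).1).le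
    · simp only [mul_assoc, ENNReal.ofReal_mul (sq_nonneg (‖c 0‖ + 1))]
      rw [lintegral_const_mul' _ _ ENNReal.ofReal_ne_top]
      exact ENNReal.mul_lt_top ENNReal.ofReal_lt_top ia'
  · intro u v e hu
    obtain ⟨r, hr, hb⟩ := Metric.eventually_nhds_iff_ball.1 e
    exact hjdp_congr hr (fun z hz => hb z hz.1) hu

end Vale.Agent.P253
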