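import Vale.Agent.P253H.Tr

/-!
Independence of the chart. With `T` from `tr_mat`: near `chartAt p p` the map `h ∘ (chartAt p).symm`
equals `h ∘ (chartAt x).symm` composed with the transition map (`jm_congr`, `jm_comp`, `hol_symm`,
`trans_diff`), and near `z` the map `chartAt x ∘ ψ` equals the transition map composed with
`chartAt (ψ z) ∘ ψ` (`HolOn.chart`, `HolOn.open_pre`). Continuity of `KK`: near `x` use `kk_loc`; entries
of `JM` are continuous on the chart target (`P278F.analyticOnNhd_of_differentiableOn`,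
`AnalyticOnNhd.fderiv`), the inverse is continuous where the determinant is nonzero.
-/

namespace Vale.Agent.P253

open Complex Matrix Metric Set Filter Topology MeasureTheory
open scoped ContDiff ComplexConjugate ComplexOrder ENNReal Manifold

variable {n m N : ℕ} {X : Type} [TopologicalSpace X] [ChartedSpace (E n) X]
  [IsManifold 𝓘(ℂ, E n) ω X] {G : X → E n → M n} {h : X → E N} {ψ : E m → X} {Ω : Set (E m)}

theorem hkl_symm (hh : MDifferentiable 𝓘(ℂ, E n) 𝓘(ℂ, E N) h) {x p : X}
    (hx : p ∈ (chartAt (E n) x).source) :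
    JM (h ∘ (chartAt (E n) p).symm) (chartAt (E n) p p) =
      JM (chartAt (E n) x ∘ (chartAt (E n) p).symm) (chartAt (E n) p p) *
        JM (h ∘ (chartAt (E n) x).symm) (chartAt (E n) x p) := by
  have hp := mem_chart_source (E n) p
  have e : (chartAt (E n) x ∘ (chartAt (E n) p).symm) (chartAt (E n) p p) = chartAt (E n) x p := by
    rw [Function.comp_apply, (chartAt (E n) p).left_inv hp]
  have d := hol_symm hh x ((chartAt (E n) x).map_source hx)
  rw [← e] at d ⊢
  rw [← jm_comp d (trans_diff x hx hp)]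
  refine jm_congr ?_
  filter_upwards [((chartAt (E n) p).tendsto_symm hp).eventually
    ((chartAt (E n) x).open_source.mem_nhds hx)] with y hy
  simp only [Function.comp_apply, (chartAt (E n) x).left_inv hy]

theorem hkl_chart (hψ : HolOn n ψ Ω) {z : E m} (hz : z ∈ Ω) {x : X}
    (hx : ψ z ∈ (chartAt (E n) x).source) : JM (chartAt (E n) x ∘ ψ) z =
      JM (chartAt (E n) (ψ z) ∘ ψ) z *
        JM (chartAt (E n) x ∘ (chartAt (E n) (ψ z)).symm) (chartAt (E n) (ψ z) (ψ z)) := by
  have hp := mem_chart_source (E n) (ψ z)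
  refine (jm_congr ?_).trans (jm_comp (Q := chartAt (E n) (ψ z) ∘ ψ) (trans_diff x hx hp)
    (hψ.chart hz hp))
  filter_upwards [(hψ.open_pre (ψ z)).mem_nhds ⟨hz, hp⟩] with y hy
  simp only [Function.comp_apply, (chartAt (E n) (ψ z)).left_inv hy.2]

theorem hkl_jm {P : E n → E N} {U : Set (E n)} (hU : IsOpen U) (hP : DifferentiableOn ℂ P U)
    {y : E n} (hy : y ∈ U) : ContinuousAt (JM P) y := by
  have c := ((P278F.analyticOnNhd_of_differentiableOn hU hP).fderiv y hy).continuousAt
  refine continuousAt_pi.2 fun a => continuousAt_pi.2 fun i => ?_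
  have k : Continuous fun L : E n →L[ℂ] E N => L (EuclideanSpace.single a 1) i := by fun_prop
  exact k.continuousAt.comp c

theorem kk_loc (hS : Std G h) {x p : X} (hx : p ∈ (chartAt (E n) x).source) :
    KK G h p = (JM (h ∘ (chartAt (E n) x).symm) (chartAt (E n) x p))ᴴ *
      (G x (chartAt (E n) x p))⁻¹ * JM (h ∘ (chartAt (E n) x).symm) (chartAt (E n) x p) := by
  obtain ⟨h1, h2⟩ := tr_mat hS.kae hx
  have h3 : IsUnit (JM (chartAt (E n) x ∘ (chartAt (E n) p).symm) (chartAt (E n) p p))ᴴ.det := by
    rw [det_conjTranspose]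
    exact h2.star
  rw [KK, h1, hkl_symm hS.hol hx, conjTranspose_mul, Matrix.mul_inv_rev, Matrix.mul_inv_rev]
  simp only [Matrix.mul_assoc]
  rw [nonsing_inv_mul_cancel_left _ _ h2, mul_nonsing_inv_cancel_left _ _ h3]

theorem gg_loc (hG : MKaehler G) (hψ : HolOn n ψ Ω) {z : E m} (hz : z ∈ Ω) {x : X}
    (hx : ψ z ∈ (chartAt (E n) x).source) : GG G ψ z = JM (chartAt (E n) x ∘ ψ) z *
      G x (chartAt (E n) x (ψ z)) * (JM (chartAt (E n) x ∘ ψ) z)ᴴ := by
  rw [GG, (tr_mat hG hx).1, hkl_chart hψ hz hx, conjTranspose_mul]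
  simp only [Matrix.mul_assoc]

theorem kk_cont (hS : Std G h) (i j : Fin N) : Continuous fun p => KK G h p i j := by
  refine continuous_iff_continuousAt.2 fun x => ?_
  have hx := mem_chart_source (E n) x
  have hy := (chartAt (E n) x).map_source hx
  have c1 := hkl_jm (chartAt (E n) x).open_target
    (fun y hy => (hol_symm hS.hol x hy).differentiableWithinAt) hy
  have c2 : ContinuousAt (G x) (chartAt (E n) x x) :=
    continuousAt_pi.2 fun a => continuousAt_pi.2 fun b =>
      (((hS.kae.loc x).smooth a b).continuousOn).continuousAt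
        ((chartAt (E n) x).open_target.mem_nhds hy)
  have c3 : ContinuousAt (Inv.inv : M n → M n) (G x (chartAt (E n) x x)) := by
    refine continuousAt_matrix_inv _ ?_
    rw [Ring.inverse_eq_inv']
    exact continuousAt_inv₀ ((hS.kae.loc x).pos _ hy).det_pos.ne'
  have k : Continuous fun q : Matrix (Fin n) (Fin N) ℂ × M n => (q.1ᴴ * q.2 * q.1) i j :=
    ((continuous_fst.matrix_conjTranspose.matrix_mul continuous_snd).matrix_mul
      continuous_fst).matrix_elem i j
  refine ((k.continuousAt.comp (c1.prodMk (c3.comp c2))).comp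
    ((chartAt (E n) x).continuousAt hx)).congr ?_
  filter_upwards [(chartAt (E n) x).open_source.mem_nhds hx] with p hp
  rw [kk_loc hS hp]
  rfl

end Vale.Agent.P253
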