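import Vale.Agent.P253H.Defs
import Vale.Agent.P253.Inv

/-!
Holomorphic change of frame. With `B' = m1`-type entrywise derivative of `B` (holomorphic),
entrywise `d2 B = 0`, `d1 Bᴴ = 0`, `d2 Bᴴ = B'ᴴ`: `m1 (Bᴴ K B) = Bᴴ (m1 K) B + Bᴴ K B'`,
`m2 (Bᴴ K B) = B'ᴴ K B + Bᴴ (m2 K) B` on `U`, `m1 (m2 ..) = B'ᴴ (m1 K) B + B'ᴴ K B' + Bᴴ (m1 (m2 K)) B +
Bᴴ (m2 K) B'`, hence `blk (Bᴴ K B) z t s = blk K z (B *ᵥ t) (B *ᵥ s + B' *ᵥ t)`. Expand entries as double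
sums and use `d1_sum d1_mul d2_sum d2_mul d1_conj d2_conj d1_holo d2_holo` (see also P253/Inv).
-/

namespace Vale.Agent.P253

open Complex Matrix Metric Set Filter Topology MeasureTheory
open scoped ContDiff ComplexConjugate ComplexOrder ENNReal Manifold

variable {n m N : ℕ}

/-- Smooth entries. -/
def hnc_S {a b : ℕ} (U : Set ℂ) (A : ℂ → Matrix (Fin a) (Fin b) ℂ) : Prop :=
  ∀ i j, ContDiffOn ℝ ∞ (fun z => A z i j) U

/-- Entrywise `∂ / ∂ z`. -/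
noncomputable def hnc_1 {a b : ℕ} (A : ℂ → Matrix (Fin a) (Fin b) ℂ) (z : ℂ) :
    Matrix (Fin a) (Fin b) ℂ := Matrix.of fun i j => d1 (fun w => A w i j) z

/-- Entrywise `∂ / ∂ conj z`. -/
noncomputable def hnc_2 {a b : ℕ} (A : ℂ → Matrix (Fin a) (Fin b) ℂ) (z : ℂ) :
    Matrix (Fin a) (Fin b) ℂ := Matrix.of fun i j => d2 (fun w => A w i j) z

section Aux

variable {a b c : ℕ} {U : Set ℂ} {A A' : ℂ → Matrix (Fin a) (Fin b) ℂ}
  {B : ℂ → Matrix (Fin b) (Fin c) ℂ} {z : ℂ}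

lemma hnc_mulS (hA : hnc_S U A) (hB : hnc_S U B) : hnc_S U fun z => A z * B z := fun i j => by
  simp only [Matrix.mul_apply]
  exact ContDiffOn.sum fun k _ => (hA i k).mul (hB k j)

lemma hnc_ctS (hA : hnc_S U A) : hnc_S U fun z => (A z)ᴴ := fun i j =>
  conjCLE.contDiff.comp_contDiffOn (hA j i)

lemma hnc_1mul (hU : IsOpen U) (hA : hnc_S U A) (hB : hnc_S U B) (hz : z ∈ U) :
    hnc_1 (fun z => A z * B z) z = hnc_1 A z * B z + A z * hnc_1 B z := by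
  ext i j
  simp only [hnc_1, Matrix.of_apply, Matrix.mul_apply, Matrix.add_apply]
  rw [← Finset.sum_add_distrib]
  refine (d1_sum (F := fun k w => A w i k * B w k j) _ fun k _ =>
    (diffAt hU (hA i k) hz).mul (diffAt hU (hB k j) hz)).trans ?_
  exact Finset.sum_congr rfl fun k _ => d1_mul (diffAt hU (hA i k) hz) (diffAt hU (hB k j) hz)

lemma hnc_2mul (hU : IsOpen U) (hA : hnc_S U A) (hB : hnc_S U B) (hz : z ∈ U) :
    hnc_2 (fun z => A z * B z) z = hnc_2 A z * B z + A z * hnc_2 B z := by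
  ext i j
  simp only [hnc_2, Matrix.of_apply, Matrix.mul_apply, Matrix.add_apply]
  rw [← Finset.sum_add_distrib]
  refine (d2_sum (F := fun k w => A w i k * B w k j) _ fun k _ =>
    (diffAt hU (hA i k) hz).mul (diffAt hU (hB k j) hz)).trans ?_
  exact Finset.sum_congr rfl fun k _ => d2_mul (diffAt hU (hA i k) hz) (diffAt hU (hB k j) hz)

lemma hnc_1add (hU : IsOpen U) (hA : hnc_S U A) (hB : hnc_S U A') (hz : z ∈ U) :
    hnc_1 (fun z => A z + A' z) z = hnc_1 A z + hnc_1 A' z := by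
  ext i j
  exact d1_add (diffAt hU (hA i j) hz) (diffAt hU (hB i j) hz)

lemma hnc_congr (hU : IsOpen U) (h : ∀ w ∈ U, A w = A' w) (hz : z ∈ U) :
    hnc_1 A z = hnc_1 A' z := by
  ext i j
  exact d1_congr ((hU.eventually_mem hz).mono fun w hw => by simp only [h w hw])

lemma hnc_1ct (A : ℂ → Matrix (Fin a) (Fin b) ℂ) (z : ℂ) :
    hnc_1 (fun w => (A w)ᴴ) z = (hnc_2 A z)ᴴ := by
  ext i j
  exact d1_conj (fun w => A w j i) z

lemma hnc_2ct (A : ℂ → Matrix (Fin a) (Fin b) ℂ) (z : ℂ) :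
    hnc_2 (fun w => (A w)ᴴ) z = (hnc_1 A z)ᴴ := by
  ext i j
  exact d2_conj (fun w => A w j i) z

lemma hnc_alg (K p q r : M a) (B D : Matrix (Fin a) (Fin b) ℂ) (t s : Fin b → ℂ) :
    hf (Dᴴ * p * B + Dᴴ * K * D + (Bᴴ * r * B + Bᴴ * q * D)) t t +
      hf (Bᴴ * p * B + Bᴴ * K * D) s t + hf (Dᴴ * K * B + Bᴴ * q * B) t s + hf (Bᴴ * K * B) s s =
    hf r (B *ᵥ t) (B *ᵥ t) + hf p (B *ᵥ s + D *ᵥ t) (B *ᵥ t) + hf q (B *ᵥ t) (B *ᵥ s + D *ᵥ t) +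
      hf K (B *ᵥ s + D *ᵥ t) (B *ᵥ s + D *ᵥ t) := by
  have e : ∀ (X : Matrix (Fin a) (Fin b) ℂ) (u : Fin b → ℂ) (v : Fin a → ℂ),
      star (X *ᵥ u) ⬝ᵥ v = star u ⬝ᵥ Xᴴ *ᵥ v := fun X u v => by
    rw [Matrix.star_mulVec, Matrix.dotProduct_mulVec]
  simp only [hf, star_add, add_dotProduct, e, Matrix.add_mulVec, Matrix.mulVec_add,
    dotProduct_add, ← Matrix.mulVec_mulVec]
  ring

end Aux

theorem neg_conj {U : Set ℂ} (hU : IsOpen U) {K : ℂ → M n} (h : Sm U K) (hn : Neg U K fun _ => 0)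
    {B : ℂ → Matrix (Fin n) (Fin N) ℂ} (hB : ∀ i j, DifferentiableOn ℂ (fun z => B z i j) U) :
    SmP U (fun z => (B z)ᴴ * K z * B z) ∧ Neg U (fun z => (B z)ᴴ * K z * B z) fun _ => 0 := by
  have sK : hnc_S U K := h.smooth
  have sB : hnc_S U B := fun i j => ((hB i j).contDiffOn hU).restrict_scalars ℝ
  have sD : hnc_S U (hnc_1 B) := fun i j => d1_smooth hU (sB i j)
  have sq : hnc_S U (hnc_2 K) := fun i j => d2_smooth hU (sK i j)
  have sH := hnc_ctS sB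
  refine ⟨⟨hnc_mulS (hnc_mulS sH sK) sB, fun z hz =>
    (h.pos z hz).posSemidef.conjTranspose_mul_mul_same _⟩, fun z hz t s => ?_⟩
  have b0 : ∀ w ∈ U, ∀ i j, d2 (fun w => B w i j) w = 0 := fun w hw i j =>
    d2_holo ((hB i j).differentiableAt (hU.mem_nhds hw))
  have b1 : ∀ w ∈ U, hnc_2 B w = 0 := fun w hw => Matrix.ext (b0 w hw)
  have b2 : hnc_2 (hnc_1 B) z = 0 := by
    ext i j
    refine (d12_comm hU (sB i j) hz).symm.trans ?_
    rw [d1_congr (g := fun _ => 0) ((hU.eventually_mem hz).mono fun w hw => b0 w hw i j)]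
    exact d1_const _
  have a1 : m1 (fun z => (B z)ᴴ * K z * B z) z =
      (B z)ᴴ * m1 K z * B z + (B z)ᴴ * K z * hnc_1 B z := by
    refine (hnc_1mul hU (hnc_mulS sH sK) sB hz).trans ?_
    rw [hnc_1mul hU sH sK hz, hnc_1ct, b1 z hz, conjTranspose_zero, Matrix.zero_mul, zero_add]
    rfl
  have a2 : ∀ w ∈ U, m2 (fun z => (B z)ᴴ * K z * B z) w =
      (hnc_1 B w)ᴴ * K w * B w + (B w)ᴴ * hnc_2 K w * B w := fun w hw => by
    refine (hnc_2mul hU (hnc_mulS sH sK) sB hw).trans ?_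
    rw [hnc_2mul hU sH sK hw, hnc_2ct, b1 w hw, Matrix.mul_zero, add_zero, Matrix.add_mul]
  have a3 : m1 (m2 fun z => (B z)ᴴ * K z * B z) z =
      (hnc_1 B z)ᴴ * m1 K z * B z + (hnc_1 B z)ᴴ * K z * hnc_1 B z +
        ((B z)ᴴ * m1 (m2 K) z * B z + (B z)ᴴ * m2 K z * hnc_1 B z) := by
    refine (hnc_congr hU a2 hz).trans ?_
    rw [hnc_1add hU (hnc_mulS (hnc_mulS (hnc_ctS sD) sK) sB) (hnc_mulS (hnc_mulS sH sq) sB) hz,
      hnc_1mul hU (hnc_mulS (hnc_ctS sD) sK) sB hz, hnc_1mul hU (hnc_mulS sH sq) sB hz,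
      hnc_1mul hU (hnc_ctS sD) sK hz, hnc_1mul hU sH sq hz, hnc_1ct, hnc_1ct, b1 z hz, b2,
      conjTranspose_zero, Matrix.zero_mul, Matrix.zero_mul, zero_add, zero_add]
    rfl
  have h1 := hn z hz (B z *ᵥ t) (B z *ᵥ s + hnc_1 B z *ᵥ t)
  rw [zero_mul, blk, ← hnc_alg] at h1
  rw [zero_mul, blk, a3, a1, a2 z hz]
  exact h1

end Vale.Agent.P253
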