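import Vale.Agent.P253H.Defs
import Vale.Agent.P253.Pull

/-!
Local version of `pull` (file P253/Pull): copy the proof; `F` is only holomorphic on the open set
`U` (`DifferentiableOn.deriv`, `DifferentiableOn.contDiffOn`).
-/

namespace Vale.Agent.P253

open Complex Matrix Metric Set Filter Topology MeasureTheory
open scoped ContDiff ComplexConjugate ComplexOrder ENNReal Manifold

variable {n m N : ℕ}

lemma hpulll_coord {F : ℂ → E n} {U : Set ℂ} (hU : IsOpen U) (hF : DifferentiableOn ℂ F U)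
    (l : Fin n) {z : ℂ} (hz : z ∈ U) : DifferentiableAt ℂ (fun w => deriv F w l) z :=
  (EuclideanSpace.proj (𝕜 := ℂ) l).differentiableAt.comp z
    ((hF.deriv hU).differentiableAt (hU.mem_nhds hz))

lemma hpulll_d12 {Ω : Set (E n)} (hΩ : IsOpen Ω) {φ : E n → ℂ} (hφ : ContDiffOn ℝ ∞ φ Ω)
    {F : ℂ → E n} {U : Set ℂ} (hU : IsOpen U) (hF : DifferentiableOn ℂ F U)
    (h : ∀ z ∈ U, F z ∈ Ω) {z : ℂ} (hz : z ∈ U) : d1 (d2 fun w => φ (F w)) z =
      ∑ k, ∑ l, dz (dzb φ l) k (F z) * deriv F z k * conj (deriv F z l) := by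
  have hd : ∀ w ∈ U, DifferentiableAt ℂ F w := fun w hw => hF.differentiableAt (hU.mem_nhds hw)
  have e : (d2 fun w => φ (F w)) =ᶠ[𝓝 z] fun w => ∑ l, dzb φ l (F w) * conj (deriv F w l) := by
    filter_upwards [hU.mem_nhds hz] with w hw
    exact (chain (diffAt hΩ hφ (h w hw)) (hd w hw)).2
  have a1 : ∀ l, DifferentiableAt ℝ (dzb φ l) (F z) := fun l =>
    diffAt hΩ (dzb_smooth hΩ hφ l) (h z hz)
  have a2 : ∀ l, DifferentiableAt ℝ (fun w => dzb φ l (F w)) z := fun l =>
    (a1 l).comp z ((hd z hz).restrictScalars ℝ)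
  have a3 : ∀ l, DifferentiableAt ℝ (fun w => conj (deriv F w l)) z := fun l =>
    diff_conj ((hpulll_coord hU hF l hz).restrictScalars ℝ)
  rw [d1_congr e, d1_sum _ fun l _ => (a2 l).fun_mul (a3 l), Finset.sum_comm]
  refine Finset.sum_congr rfl fun l _ => ?_
  rw [d1_mul (a2 l) (a3 l), d1_conj, d2_holo (hpulll_coord hU hF l hz),
    (chain (a1 l) (hd z hz)).1, Finset.sum_mul]
  simp

theorem pullL {Ω : Set (E n)} (hΩ : IsOpen Ω) {g : E n → M n} (hg : IsKaehler Ω g)
    (hb : NonnegBisec Ω g) {F : ℂ → E n} {U : Set ℂ} (hU : IsOpen U) (hF : DifferentiableOn ℂ F U)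
    (h : ∀ z ∈ U, F z ∈ Ω) : Sm U (fun z => g (F z)) ∧ Pos U (fun z => g (F z)) := by
  refine ⟨⟨fun i j => (hg.smooth i j).comp
    ((hF.contDiffOn (n := ∞) hU).restrict_scalars ℝ) h, fun z hz => hg.pos _ (h z hz)⟩,
    fun z hz y => ?_⟩
  have c := fun i j => chain (diffAt hΩ (hg.smooth i j) (h z hz))
    (hF.differentiableAt (hU.mem_nhds hz))
  have e : ∀ i j, (-m1 (m2 fun z => g (F z)) z + m1 (fun z => g (F z)) z * (g (F z))⁻¹ *
      m2 (fun z => g (F z)) z) i j =
      ∑ k, ∑ l, curv g (F z) i j k l * deriv F z k * conj (deriv F z l) := fun i j => by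
    have e1 := hpulll_d12 hΩ (hg.smooth i j) hU hF h hz
    have e2 := pull_alg (fun q k => dz (fun x => g x i q) k (F z))
      (fun p l => dzb (fun x => g x p j) l (F z)) (g (F z))⁻¹ (fun k => deriv F z k)
      fun l => conj (deriv F z l)
    simp only [Matrix.add_apply, Matrix.neg_apply, Matrix.mul_apply, m1, m2, Matrix.of_apply,
      fun i j => (c i j).1, fun i j => (c i j).2, curv, add_mul, Finset.sum_add_distrib, neg_mul,
      Finset.sum_neg_distrib]
    rw [e1, e2]
  have k := hb (F z) (h z hz) (star y) fun k => deriv F z k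
  refine k.trans_eq (congrArg Complex.re ?_)
  simp only [hf, dotProduct, mulVec, e, Finset.mul_sum, Finset.sum_mul, Pi.star_apply]
  refine Finset.sum_congr rfl fun i _ => Finset.sum_congr rfl fun j _ =>
    Finset.sum_congr rfl fun k _ => Finset.sum_congr rfl fun l _ => ?_
  rw [starRingEnd_apply (star (y j)), star_star]
  ring

end Vale.Agent.P253
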