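import Vale.Agent.P253H.KL
import Vale.Agent.P253H.NC
import Vale.Agent.P253H.PullL

/-!
`SmP` and `Neg` are local (`blk` only depends on the germ: `d1_congr`, `d2_congr`,
`Filter.EventuallyEq.eventuallyEq_nhds`). Near `z ∈ U` use the chart at `x = ψ (F z)`, the open set
`U'` of `w ∈ U` with `ψ (F w) ∈ source`, the curve `c = chartAt x ∘ ψ ∘ F` (`HolOn.chart`), `pullL`,
`inv_neg`, `neg_conj` with `B w = JM (h ∘ (chartAt x).symm) (c w)` (holomorphic entries by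
`P278F.analyticOnNhd_of_differentiableOn`, `hol_symm`, `AnalyticOnNhd.fderiv`), and `kk_loc`.
-/

namespace Vale.Agent.P253

open Complex Matrix Metric Set Filter Topology MeasureTheory
open scoped ContDiff ComplexConjugate ComplexOrder ENNReal Manifold

variable {n m N : ℕ} {X : Type} [TopologicalSpace X] [ChartedSpace (E n) X]
  [IsManifold 𝓘(ℂ, E n) ω X] {G : X → E n → M n} {h : X → E N} {ψ : E m → X} {Ω : Set (E m)}

theorem hkn_blk {K L : ℂ → M N} {z : ℂ} (e : K =ᶠ[𝓝 z] L) (t s : Fin N → ℂ) :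
    blk K z t s = blk L z t s := by
  have en : ∀ {A B : ℂ → M N} {w : ℂ}, A =ᶠ[𝓝 w] B → ∀ i j,
      (fun y => A y i j) =ᶠ[𝓝 w] fun y => B y i j := fun e i j =>
    e.mono fun _ hy => congrFun (congrFun hy i) j
  have e1 : ∀ {A B : ℂ → M N}, A =ᶠ[𝓝 z] B → m1 A z = m1 B z := fun e =>
    Matrix.ext fun i j => d1_congr (en e i j)
  have e2 : m2 K =ᶠ[𝓝 z] m2 L := e.eventuallyEq_nhds.mono fun _ e =>
    Matrix.ext fun i j => d2_congr (en e i j)
  rw [blk, blk, e1 e, e1 e2, e2.eq_of_nhds, e.eq_of_nhds]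

theorem hkn_loc (hS : Std G h) (hψ : HolOn n ψ Ω) {F : ℂ → E m} (hF : Differentiable ℂ F)
    {U : Set ℂ} (hU : IsOpen U) (hin : ∀ z ∈ U, F z ∈ Ω) {z : ℂ} (hz : z ∈ U) :
    ∃ (V : Set ℂ) (L : ℂ → M N), V ∈ 𝓝 z ∧ (fun w => KK G h (ψ (F w))) =ᶠ[𝓝 z] L ∧ SmP V L ∧
      Neg V L fun _ => 0 := by
  set P := chartAt (E n) (ψ (F z)) with hP
  have hV : IsOpen (U ∩ F ⁻¹' (Ω ∩ ψ ⁻¹' P.source)) :=
    hU.inter ((hψ.open_pre _).preimage hF.continuous)
  have hm : U ∩ F ⁻¹' (Ω ∩ ψ ⁻¹' P.source) ∈ 𝓝 z :=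
    hV.mem_nhds ⟨hz, hin z hz, mem_chart_source _ _⟩
  have hc : DifferentiableOn ℂ (fun w => P (ψ (F w))) (U ∩ F ⁻¹' (Ω ∩ ψ ⁻¹' P.source)) :=
    fun w hw => ((hψ.chart hw.2.1 hw.2.2).comp w (hF w)).differentiableWithinAt
  have ht : ∀ w ∈ U ∩ F ⁻¹' (Ω ∩ ψ ⁻¹' P.source), P (ψ (F w)) ∈ P.target := fun w hw =>
    P.map_source hw.2.2
  obtain ⟨a1, a2⟩ := pullL P.open_target (hS.kae.loc _) (hS.nn _) hV hc ht
  obtain ⟨b1, b2⟩ := inv_neg hV a1 a2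
  have an := (P278F.analyticOnNhd_of_differentiableOn P.open_target fun y hy =>
    (hol_symm hS.hol _ hy).differentiableWithinAt).fderiv
  obtain ⟨c1, c2⟩ := neg_conj hV b1 b2 (B := fun w => JM (h ∘ P.symm) (P (ψ (F w)))) fun i j =>
    (differentiableOn_euclidean.1 ((an.differentiableOn.comp hc ht).clm_apply
      (differentiableOn_const (EuclideanSpace.single i 1))) j :)
  exact ⟨_, _, hm, mem_of_superset hm fun w hw => kk_loc hS hw.2.2, c1, c2⟩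

theorem kk_neg (hS : Std G h) (hψ : HolOn n ψ Ω) {F : ℂ → E m} (hF : Differentiable ℂ F)
    {U : Set ℂ} (hU : IsOpen U) (hin : ∀ z ∈ U, F z ∈ Ω) :
    SmP U (fun z => KK G h (ψ (F z))) ∧ Neg U (fun z => KK G h (ψ (F z))) fun _ => 0 := by
  refine ⟨⟨fun i j z hz => ?_, fun z hz => ?_⟩, fun z hz t s => ?_⟩ <;>
    obtain ⟨V, L, h1, h2, h3, h4⟩ := hkn_loc hS hψ hF hU hin hz
  · exact (((h3.smooth i j).contDiffAt h1).congr_of_eventuallyEq
      (h2.mono fun _ hy => congrFun (congrFun hy i) j)).contDiffWithinAt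
  · exact h2.eq_of_nhds ▸ h3.pos z (mem_of_mem_nhds h1)
  · have := h4 z (mem_of_mem_nhds h1) t s
    rw [zero_mul] at this ⊢
    rwa [hkn_blk h2]

end Vale.Agent.P253
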