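import Vale.Agent.P253H.Ret

/-!
The set where `Φ` lifts through `h`. `glue`: `LL` is open; define `ψ z` as a preimage of `Φ z` under `h`
(`Function.invFun`); by injectivity it agrees with every local lift on its domain. `lift_lim`: take
`R, V` from `retr` at `p`; `Φ z = h p` (limits, `h` and `Φ` continuous); on a ball `B ⊆ W` around `z`
with `Φ B ⊆ V` the map `R ∘ Φ` is holomorphic; for large `k`, `h (R (Φ w)) = Φ w` for `w` near `x k ∈ B`
(continuity of `ψ` at `x k`, `eventually_eventually_nhds`), so on `B` by the identity theorem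
(`P278F.analyticOnNhd_of_differentiableOn`, `AnalyticOnNhd.eqOn_of_preconnected_of_eventuallyEq`).
-/

namespace Vale.Agent.P253

open Complex Matrix Metric Set Filter Topology MeasureTheory
open scoped ContDiff ComplexConjugate ComplexOrder ENNReal Manifold

variable {n m N : ℕ} {X : Type} [TopologicalSpace X]

/-- The points near which `Φ` lifts holomorphically through `h`. -/
def LL (n : ℕ) [ChartedSpace (E n) X] (h : X → E N) (Φ : E m → E N) (W : Set (E m)) : Set (E m) :=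
  {z | ∃ (ψ : E m → X) (V : Set (E m)), HolOn n ψ V ∧ z ∈ V ∧ V ⊆ W ∧ ∀ w ∈ V, h (ψ w) = Φ w}

variable [ChartedSpace (E n) X] [IsManifold 𝓘(ℂ, E n) ω X] {G : X → E n → M n} {h : X → E N}
  {ψ : E m → X} {Ω : Set (E m)}

theorem glue [Nonempty X] (hi : Function.Injective h) (Φ : E m → E N) (W : Set (E m)) :
    ∃ ψ : E m → X, HolOn n ψ (LL n h Φ W) ∧ ∀ z ∈ LL n h Φ W, h (ψ z) = Φ z := by
  have k : ∀ {ψ : E m → X} {V : Set (E m)}, (∀ w ∈ V, h (ψ w) = Φ w) →
      ∀ w ∈ V, (Function.invFun h ∘ Φ) w = ψ w := fun he w hw => by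
    rw [Function.comp_apply, ← he w hw]
    exact Function.leftInverse_invFun hi _
  refine ⟨Function.invFun h ∘ Φ, ⟨isOpen_iff_mem_nhds.2 ?_, ?_⟩, ?_⟩
  · rintro z ⟨ψ, V, h1, h2, h3, h4⟩
    exact mem_of_superset (h1.op.mem_nhds h2) fun w hw => ⟨ψ, V, h1, hw, h3, h4⟩
  · rintro z ⟨ψ, V, h1, h2, -, h4⟩
    exact ((h1.at h2).congr_of_eventuallyEq
      (mem_of_superset (h1.op.mem_nhds h2) (k h4))).mdifferentiableWithinAt
  · rintro z ⟨ψ, V, -, h2, -, h4⟩
    rw [k h4 z h2, h4 z h2]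

theorem lift_lim (hS : Std G h) {Φ : E m → E N} {W : Set (E m)} (hW : IsOpen W)
    (hΦ : DifferentiableOn ℂ Φ W) (hψ : HolOn n ψ Ω) (he : ∀ z ∈ Ω, h (ψ z) = Φ z)
    {x : ℕ → E m} (hx : ∀ k, x k ∈ Ω) {z : E m} (hz : z ∈ W) (h1 : Tendsto x atTop (𝓝 z)) {p : X}
    (h2 : Tendsto (fun k => ψ (x k)) atTop (𝓝 p)) : z ∈ LL n h Φ W := by
  obtain ⟨R, V, hR, hp, hr⟩ := retr hS p
  have c : ContinuousAt Φ z := hΦ.continuousOn.continuousAt (hW.mem_nhds hz)
  have e : Φ z = h p := tendsto_nhds_unique (c.tendsto.comp h1)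
    (((hS.hol.continuous.tendsto p).comp h2).congr fun k => he _ (hx k))
  obtain ⟨r, r0, hB⟩ := Metric.mem_nhds_iff.1
    (inter_mem (hW.mem_nhds hz) (c.preimage_mem_nhds (hR.op.mem_nhds (e ▸ hp))))
  have hH : HolOn n (R ∘ Φ) (ball z r) := ⟨isOpen_ball, fun w hw => ((hR.at (hB hw).2).comp w
    (mdifferentiableAt_iff_differentiableAt.2
      (hΦ.differentiableAt (hW.mem_nhds (hB hw).1)))).mdifferentiableWithinAt⟩
  obtain ⟨k, k1, k2⟩ :=
    ((h1.eventually (ball_mem_nhds z r0)).and (h2.eventually hr.eventually_nhds)).exists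
  have a1 : AnalyticOnNhd ℂ (h ∘ R ∘ Φ) (ball z r) :=
    P278F.analyticOnNhd_of_differentiableOn isOpen_ball fun w hw =>
      (hH.comp_diff hS.hol hw).differentiableWithinAt
  have a2 : AnalyticOnNhd ℂ Φ (ball z r) :=
    P278F.analyticOnNhd_of_differentiableOn isOpen_ball (hΦ.mono fun w hw => (hB hw).1)
  refine ⟨R ∘ Φ, ball z r, hH, mem_ball_self r0, fun w hw => (hB hw).1,
    a1.eqOn_of_preconnected_of_eventuallyEq a2 (convex_ball z r).isPreconnected k1 ?_⟩
  filter_upwards [hψ.op.mem_nhds (hx k), (hψ.at (hx k)).continuousAt.eventually k2] with w w1 w2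
  simp only [Function.comp_apply]
  rw [← he w w1, w2]

end Vale.Agent.P253
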