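import Vale.Agent.P253H.KN
import Vale.Agent.P253.Low

/-!
As `low` in P253/Low: for `τ ∈ [0, 1)`, `kk_neg` on `ball 0 2` for the curve `f + τ • b`, `maxp` for
`q w = re (K w i i)` (`blk K z (single i 1) 0 ≥ 0`), a bound on the compact set of `f ζ + τ • b ζ`,
`‖ζ‖ = 1`, `τ ∈ [0, 1]` by `kk_cont` and `HolOn.cont`, and the limit `τ → 1`.
-/

namespace Vale.Agent.P253

open Complex Matrix Metric Set Filter Topology MeasureTheory
open scoped ContDiff ComplexConjugate ComplexOrder ENNReal Manifold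

variable {n m N : ℕ} {X : Type} [TopologicalSpace X] [ChartedSpace (E n) X]
  [IsManifold 𝓘(ℂ, E n) ω X] {G : X → E n → M n} {h : X → E N} {ψ : E m → X} {Ω : Set (E m)}

lemma hlowh_max {K : ℂ → M n} (h : SmP (ball 0 2) K) (hn : Neg (ball 0 2) K fun _ => 0)
    (i : Fin n) {C : ℝ} (hb : ∀ z : ℂ, ‖z‖ = 1 → (K z i i).re ≤ C) :
    ∀ z : ℂ, ‖z‖ ≤ 1 → (K z i i).re ≤ C := by
  refine maxp (q := fun z => (K z i i).re) (isOpen_ball (x := (0 : ℂ)) (ε := 2))
    (closedBall_subset_ball one_lt_two) (reCLM.contDiff.comp_contDiffOn (h.smooth i i))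
    (fun z hz => ?_) hb
  have h1 : ∀ w ∈ ball (0 : ℂ) 2, (fun w => (((K w i i).re : ℝ) : ℂ)) =ᶠ[𝓝 w]
      fun w => K w i i := fun w hw => by
    filter_upwards [isOpen_ball.mem_nhds hw] with y hy
    exact conj_eq_iff_re.1 ((h.pos y hy).isHermitian.apply i i)
  have h2 : d2 (fun w => (((K w i i).re : ℝ) : ℂ)) =ᶠ[𝓝 z] d2 fun w => K w i i := by
    filter_upwards [isOpen_ball.mem_nhds hz] with y hy
    exact d2_congr (h1 y hy)
  rw [d1_congr h2]
  have h3 := hn z hz (Pi.single i 1) 0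
  rw [zero_mul, blk, low_hf] at h3
  have h4 : 0 ≤ (m1 (m2 K) z i i).re := by simpa [hf] using h3
  exact h4

theorem lowH (hS : Std G h) (hψ : HolOn n ψ Ω) {f b : ℂ → E m} (hT : Touch Ω f b) :
    ∃ c : ℝ, 0 ≤ c ∧ ∀ z ∈ pd 1, ∀ i, (KK G h (ψ (f z + b z)) i i).re ≤ c := by
  have hc : Continuous fun p : ℂ × ℝ => f p.1 + (p.2 : ℂ) • b p.1 :=
    (hT.df.continuous.comp continuous_fst).add
      ((continuous_ofReal.comp continuous_snd).smul (hT.db.continuous.comp continuous_fst))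
  have hK : IsCompact (sphere (0 : ℂ) 1 ×ˢ Icc (0 : ℝ) 1) := (isCompact_sphere _ _).prod isCompact_Icc
  have hd : ∀ x ∈ Ω, ContinuousAt (fun y => fun i => KK G h (ψ y) i i) x := fun x hx =>
    continuousAt_pi.2 fun i =>
      (kk_cont hS i i).continuousAt.comp (hψ.cont.continuousAt (hψ.op.mem_nhds hx))
  obtain ⟨C, hC⟩ := hK.exists_bound_of_continuousOn
    (f := fun p : ℂ × ℝ => fun i => KK G h (ψ (f p.1 + (p.2 : ℂ) • b p.1)) i i) fun p hp => by
      have h1 : ‖p.1‖ = 1 := mem_sphere_zero_iff_norm.1 hp.1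
      refine (ContinuousAt.comp (g := fun y => fun i => KK G h (ψ y) i i) (hd _ ?_)
        hc.continuousAt).continuousWithinAt
      exact hT.ins _ hp.2 _ (h1.le.trans one_le_two) (Or.inr fun e => by simp [e] at h1)
  have h1 : ∀ τ ∈ Ico (0 : ℝ) 1, ∀ z : ℂ, ‖z‖ ≤ 1 → ∀ i,
      (KK G h (ψ (f z + (τ : ℂ) • b z)) i i).re ≤ C := fun τ hτ z hz i => by
    obtain ⟨a1, a2⟩ := kk_neg hS hψ (F := fun w => f w + (τ : ℂ) • b w)
      (hT.df.add (hT.db.const_smul (τ : ℂ))) (isOpen_ball (x := (0 : ℂ)) (ε := 2)) fun w hw =>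
        hT.ins τ ⟨hτ.1, hτ.2.le⟩ w (mem_ball_zero_iff.1 hw).le (Or.inl hτ.2)
    refine hlowh_max a1 a2 i (fun w hw => ?_) z hz
    exact (re_le_norm _).trans ((norm_le_pi_norm
      (fun i => KK G h (ψ (f w + (τ : ℂ) • b w)) i i) i).trans
        (hC (w, τ) ⟨mem_sphere_zero_iff_norm.2 hw, hτ.1, hτ.2.le⟩))
  refine ⟨max C 0, le_max_right _ _, fun z hz i => ?_⟩
  obtain ⟨hz1, hz0⟩ := mem_pd.1 hz
  have h2 : f z + ((1 : ℝ) : ℂ) • b z ∈ Ω :=
    hT.ins 1 ⟨zero_le_one, le_rfl⟩ z (hz1.le.trans one_le_two) (Or.inr hz0)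
  have h3 : ContinuousAt (fun τ : ℝ => (KK G h (ψ (f z + (τ : ℂ) • b z)) i i).re) 1 :=
    continuous_re.continuousAt.comp (ContinuousAt.comp (g := fun y => KK G h (ψ y) i i)
      (f := fun τ : ℝ => f z + (τ : ℂ) • b z) (continuousAt_pi.1 (hd _ h2) i)
      (hc.comp (continuous_const.prodMk continuous_id)).continuousAt)
  have h4 : (KK G h (ψ (f z + ((1 : ℝ) : ℂ) • b z)) i i).re ≤ C := by
    refine le_of_tendsto (h3.tendsto.mono_left (nhdsWithin_le_nhds (s := Iio 1))) ?_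
    filter_upwards [Ico_mem_nhdsLT (zero_lt_one' ℝ)] with τ hτ
    exact h1 τ hτ z hz1.le i
  rw [ofReal_one, one_smul] at h4
  exact h4.trans (le_max_left _ _)

end Vale.Agent.P253
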