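import Vale.Agent.P253H.Defs

/-!
Maximum principle from the sub-mean value inequality. Suppose the maximum `A` of `u` on the closed disc
is `> C`. Among the maximum points (a compact set) take `c` with the largest norm; `‖c‖ < s`. With
`ρ = s - ‖c‖`, `u ≤ A` on the circle, and `u < A` at a point of the circle of norm `s`, so the average is
`< A` (`Real.circleAverage_def`, `intervalIntegral.integral_lt_integral_of_continuousOn_of_le_of_exists_lt`).
Second part: convexity. If `f 0 + b 0 ∉ W`, separate (`geometric_hahn_banach_open_point`) and use the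
mean value property of the entire map `f + b` on the unit circle (`circleAverage` of a holomorphic map,
`ContinuousLinearMap.circleAverage_comp_comm` or the maximum principle for `exp (ℓ ∘ F)`).
-/

namespace Vale.Agent.P253

open Complex Matrix Metric Set Filter Topology MeasureTheory
open scoped ContDiff ComplexConjugate ComplexOrder ENNReal Manifold

variable {n m N : ℕ}

theorem hmaxc_lt {v : ℂ → ℝ} {c : ℂ} {ρ A : ℝ} (hv : Continuous fun θ => v (circleMap c ρ θ))
    (hle : ∀ θ, v (circleMap c ρ θ) ≤ A)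
    (hlt : ∃ θ ∈ Icc (0 : ℝ) (2 * Real.pi), v (circleMap c ρ θ) < A) :
    Real.circleAverage v c ρ < A := by
  have hp : (0 : ℝ) < 2 * Real.pi := by positivity
  have h := intervalIntegral.integral_lt_integral_of_continuousOn_of_le_of_exists_lt
    (f := fun θ => v (circleMap c ρ θ)) (g := fun _ => A) hp hv.continuousOn continuousOn_const
    (fun θ _ => hle θ) hlt
  rw [intervalIntegral.integral_const, sub_zero, smul_eq_mul] at h
  rw [Real.circleAverage_def, smul_eq_mul, inv_mul_lt_iff₀ hp]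
  exact h

theorem hmaxc_far (c : ℂ) {ρ : ℝ} (hρ : 0 < ρ) :
    ∃ θ ∈ Icc (0 : ℝ) (2 * Real.pi), ‖c‖ < ‖circleMap c ρ θ‖ := by
  have hp := Real.pi_pos
  by_contra h
  have h1 : ‖circleMap c ρ 0‖ ≤ ‖c‖ := not_lt.1 fun h' => h ⟨0, ⟨le_rfl, by linarith⟩, h'⟩
  have h2 : ‖circleMap c ρ Real.pi‖ ≤ ‖c‖ :=
    not_lt.1 fun h' => h ⟨Real.pi, ⟨by linarith, by linarith⟩, h'⟩
  have e1 : circleMap c ρ 0 = c + ρ := by simp [circleMap]
  have e2 : circleMap c ρ Real.pi = c - ρ := by
    simp [circleMap, Complex.exp_pi_mul_I, sub_eq_add_neg]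
  rw [e1] at h1
  rw [e2] at h2
  have h3 := pow_le_pow_left₀ (norm_nonneg _) h1 2
  have h4 := pow_le_pow_left₀ (norm_nonneg _) h2 2
  simp only [Complex.sq_norm, Complex.normSq_apply, add_re, add_im, sub_re, sub_im, ofReal_re,
    ofReal_im] at h3 h4
  nlinarith

theorem maxc {u : ℂ → ℝ} {s : ℝ} (hs : 0 < s) (hu : ContinuousOn u (closedBall 0 s))
    (hm : ∀ (c : ℂ) (ρ : ℝ), 0 < ρ → closedBall c ρ ⊆ closedBall 0 s →
      u c ≤ Real.circleAverage u c ρ) {C : ℝ} (hb : ∀ z : ℂ, ‖z‖ = s → u z ≤ C) :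
    ∀ z : ℂ, ‖z‖ ≤ s → u z ≤ C := by
  intro z hz
  by_contra hC
  have hK : IsCompact (closedBall (0 : ℂ) s) := isCompact_closedBall _ _
  have hzK : z ∈ closedBall (0 : ℂ) s := mem_closedBall_zero_iff.2 hz
  obtain ⟨z0, hz0, hmax⟩ := hK.exists_isMaxOn ⟨z, hzK⟩ hu
  have hA : C < u z0 := (not_le.1 hC).trans_le (hmax hzK)
  have hS : IsCompact (closedBall (0 : ℂ) s ∩ u ⁻¹' {u z0}) :=
    hK.of_isClosed_subset (hu.preimage_isClosed_of_isClosed isClosed_closedBall isClosed_singleton)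
      inter_subset_left
  obtain ⟨c, ⟨hcK, hc⟩, hcm⟩ := hS.exists_isMaxOn ⟨z0, hz0, rfl⟩ continuous_norm.continuousOn
  have hc' : u c = u z0 := hc
  have hcs : ‖c‖ < s := lt_of_le_of_ne (mem_closedBall_zero_iff.1 hcK) fun h => by
    have := hb c h
    linarith
  have hρ : 0 < s - ‖c‖ := by linarith
  have hsub : closedBall c (s - ‖c‖) ⊆ closedBall 0 s :=
    closedBall_subset_closedBall' (by rw [dist_zero_right]; linarith)
  have hin : ∀ θ, circleMap c (s - ‖c‖) θ ∈ closedBall (0 : ℂ) s := fun θ =>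
    hsub (circleMap_mem_closedBall c hρ.le θ)
  have h1 := hm c _ hρ hsub
  obtain ⟨θ, hθ, hfar⟩ := hmaxc_far c hρ
  have h2 := hmaxc_lt (v := u) (A := u z0) (hu.comp_continuous (continuous_circleMap _ _) hin)
    (fun θ => hmax (hin θ)) ⟨θ, hθ, lt_of_le_of_ne (hmax (hin θ)) fun h =>
      absurd (hcm ⟨hin θ, h⟩) (not_le.2 hfar)⟩
  linarith

theorem touch_conv {Ω W : Set (E m)} {f b : ℂ → E m} (hT : Touch Ω f b) (hW : IsOpen W)
    (hc : Convex ℝ W) (hs : Ω ⊆ W) : f 0 + b 0 ∈ W := by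
  by_contra h0
  obtain ⟨l, hl⟩ := geometric_hahn_banach_open_point hc hW h0
  have hF : Differentiable ℂ fun z => f z + b z := hT.df.add hT.db
  have h1 : Real.circleAverage (fun z => f z + b z) 0 1 = f 0 + b 0 :=
    hF.diffContOnCl.circleAverage
  have h2 := l.circleAverage_comp_comm (f := fun z => f z + b z) (c := 0) (R := 1)
    hF.continuous.continuousOn.circleIntegrable'
  have hlt : ∀ θ, (l ∘ fun z => f z + b z) (circleMap 0 1 θ) < l (f 0 + b 0) := fun θ => by
    have hn : ‖circleMap 0 1 θ‖ = 1 := by simp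
    have := hT.ins 1 ⟨zero_le_one, le_rfl⟩ (circleMap 0 1 θ) (by rw [hn]; norm_num)
      (Or.inr (circleMap_ne_center one_ne_zero))
    rw [ofReal_one, one_smul] at this
    exact hl _ (hs this)
  have h3 := hmaxc_lt (v := l ∘ fun z => f z + b z) (c := 0) (ρ := 1) (A := l (f 0 + b 0))
    ((l.continuous.comp hF.continuous).comp (continuous_circleMap _ _)) (fun θ => (hlt θ).le)
    ⟨0, ⟨le_rfl, by positivity⟩, hlt 0⟩
  rw [h2, h1] at h3
  exact lt_irrefl _ h3

theorem bidisc_open : IsOpen bidisc ∧ Convex ℝ bidisc ∧ ∀ r, IsOpen (hartogsFig r) := by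
  have hc : ∀ i : Fin 2, Continuous fun z : E 2 => ‖z i‖ := fun i => by fun_prop
  have ho : ∀ (i : Fin 2) (r : ℝ), IsOpen {z : E 2 | ‖z i‖ < r} := fun i r =>
    isOpen_lt (hc i) continuous_const
  have hv : ∀ i : Fin 2, Convex ℝ {z : E 2 | ‖z i‖ < 1} := fun i x hx y hy a b ha hb hab => by
    have := convex_ball (0 : ℂ) 1 (mem_ball_zero_iff.2 hx) (mem_ball_zero_iff.2 hy) ha hb hab
    exact mem_ball_zero_iff.1 this
  exact ⟨(ho 0 1).inter (ho 1 1), (hv 0).inter (hv 1), fun r => (ho 0 1).inter ((ho 1 1).inter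
    ((ho 0 r).union (isOpen_lt continuous_const (hc 1))))⟩

end Vale.Agent.P253
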