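import Vale.Agent.P253H.Defs

/-!
A local retraction. Let `c = chartAt p`, `H = h ∘ c.symm` (analytic near `c p` by `hol_symm` and
`P278F.analyticOnNhd_of_differentiableOn`), `L = fderiv ℂ H (c p)` injective (`Std.imm`,
`MDifferentiableAt.mfderiv`). Take a continuous linear left inverse `π` of `L`
(`LinearMap.exists_leftInverse_of_injective`, `LinearMap.toContinuousLinearMap`). `π ∘ H` has derivative
the identity at `c p`; let `σ` be its local inverse (`ContDiffAt.toOpenPartialHomeomorph`,
`ContDiffAt.to_localInverse`, eventually differentiable), `R = c.symm ∘ σ ∘ π`, `V` a small open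
neighbourhood of `h p` (`mdifferentiableAt_atlas_symm`).
-/

namespace Vale.Agent.P253

open Complex Matrix Metric Set Filter Topology MeasureTheory
open scoped ContDiff ComplexConjugate ComplexOrder ENNReal Manifold

variable {n m N : ℕ} {X : Type} [TopologicalSpace X] [ChartedSpace (E n) X]
  [IsManifold 𝓘(ℂ, E n) ω X] {G : X → E n → M n} {h : X → E N} {ψ : E m → X} {Ω : Set (E m)}

theorem hret_left {H : E n → E N} {a : E n} (hH : AnalyticAt ℂ H a)
    (hi : Function.Injective (fderiv ℂ H a)) :
    ∃ τ : E N → E n, AnalyticAt ℂ τ (H a) ∧ ∀ᶠ z in 𝓝 a, τ (H z) = z := by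
  obtain ⟨l, hl⟩ := LinearMap.exists_leftInverse_of_injective
    (fderiv ℂ H a : E n →ₗ[ℂ] E N) (LinearMap.ker_eq_bot.2 hi)
  let π : E N →L[ℂ] E n := LinearMap.toContinuousLinearMap l
  have h1 : ContDiffAt ℂ ω (π ∘ H) a := π.contDiff.contDiffAt.comp a hH.contDiffAt
  have h2 : HasFDerivAt (π ∘ H) (ContinuousLinearEquiv.refl ℂ (E n) : E n →L[ℂ] E n) a := by
    refine (π.hasFDerivAt.comp a hH.differentiableAt.hasFDerivAt).congr_fderiv ?_
    exact ContinuousLinearMap.ext fun v => LinearMap.congr_fun hl v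
  refine ⟨h1.localInverse h2 (by simp) ∘ π, ?_,
    (h1.hasStrictFDerivAt' h2 (by simp)).eventually_left_inverse⟩
  exact AnalyticAt.comp (h1.to_localInverse h2 (by simp)).analyticAt (π.analyticAt _)

theorem retr (hS : Std G h) (p : X) : ∃ (R : E N → X) (V : Set (E N)), HolOn n R V ∧ h p ∈ V ∧
    ∀ᶠ x in 𝓝 p, R (h x) = x := by
  have hp := mem_chart_source (E n) p
  have ht := (chartAt (E n) p).open_target.mem_nhds ((chartAt (E n) p).map_source hp)
  have hH : AnalyticAt ℂ (h ∘ (chartAt (E n) p).symm) (chartAt (E n) p p) :=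
    P278F.analyticAt_of_eventually (mem_of_superset ht fun y hy => hol_symm hS.hol p hy)
  have hi : Function.Injective (fderiv ℂ (h ∘ (chartAt (E n) p).symm) (chartAt (E n) p p)) := by
    have h1 := hS.imm p
    rw [(hS.hol p).mfderiv] at h1
    simp only [writtenInExtChartAt, mfld_simps, fderivWithin_univ] at h1
    exact h1
  obtain ⟨τ, h1, h2⟩ := hret_left hH hi
  have h3 : τ (h p) = chartAt (E n) p p := by
    have := h2.self_of_nhds
    rwa [Function.comp_apply, (chartAt (E n) p).left_inv hp] at this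
  rw [Function.comp_apply, (chartAt (E n) p).left_inv hp] at h1
  have h5 : ∀ᶠ y in 𝓝 (h p), τ y ∈ (chartAt (E n) p).target :=
    h1.continuousAt.preimage_mem_nhds (h3 ▸ ht)
  obtain ⟨V, hV, hVo, hpV⟩ := _root_.eventually_nhds_iff.1 (h1.eventually_analyticAt.and h5)
  refine ⟨(chartAt (E n) p).symm ∘ τ, V, ⟨hVo, fun y hy => ?_⟩, hpV, ?_⟩
  · exact ((mdifferentiableAt_atlas_symm (I := 𝓘(ℂ, E n)) (chart_mem_atlas (E n) p)
      (hV y hy).2).comp y (mdifferentiableAt_iff_differentiableAt.2
        (hV y hy).1.differentiableAt)).mdifferentiableWithinAt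
  · filter_upwards [((chartAt (E n) p).continuousAt hp).eventually h2,
      (chartAt (E n) p).open_source.mem_nhds hp] with x h4 hx
    rw [Function.comp_apply, (chartAt (E n) p).left_inv hx] at h4
    rw [Function.comp_apply, h4, (chartAt (E n) p).left_inv hx]

end Vale.Agent.P253
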