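import Vale.Agent.P253H.Defs
import Vale.Agent.P253.Rz

/-!
Semidefinite version of `riesz` (file P253/Rz, and `exists_sqrt` in P253/Sq, which extends to
`PosSemidef` matrices): copy the proofs. With `u z = star ((A (K z))ᴴ *ᵥ y z)` and `a z = ‖y z‖ ^ 2`:
`u z ⬝ᵥ t = ⟪y z, A t⟫`, so `‖u z ⬝ᵥ t‖ ^ 2 ≤ ‖y z‖ ^ 2 * ‖A t‖ ^ 2 = a z * re (hf K t t)`.
-/

namespace Vale.Agent.P253

open Complex Matrix Metric Set Filter Topology MeasureTheory
open scoped ContDiff ComplexConjugate ComplexOrder ENNReal Manifold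

variable {n m N : ℕ}

theorem hrzp_sqrt (n : ℕ) : ∃ A : M n → M n, ContinuousOn A {K | K.PosSemidef} ∧
    ∀ K : M n, K.PosSemidef → (A K)ᴴ * A K = K := by
  open scoped Matrix.Norms.L2Operator MatrixOrder in
  refine ⟨fun K => CFC.sqrt K, (CFC.continuousOn_sqrt (A := M n)).mono
    fun K hK => PosSemidef.nonneg hK, fun K hK => ?_⟩
  open scoped Matrix.Norms.L2Operator MatrixOrder in
  rw [(CFC.sqrt_nonneg K).posSemidef.1.eq, CFC.sqrt_mul_sqrt_self K hK.nonneg]

theorem rieszP {U : Set ℂ} (hU : IsOpen U) {K : ℂ → M n} (h : SmP U K) {f : ℂ → Fin n → ℂ}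
    (hf' : ContinuousOn f U) {C : ℝ} (hC : 0 ≤ C)
    (hb : ∀ t, Tst U t → ‖∫ z in U, f z ⬝ᵥ t z‖ ^ 2 ≤
      C * ∫ z in U, (hf (K z) (vd2 t z) (vd2 t z)).re) :
    ∃ (u : ℂ → Fin n → ℂ) (a : ℂ → ℝ), (∀ i, LocallyIntegrableOn (fun z => u z i) U) ∧
      AEMeasurable a (volume.restrict U) ∧ (∀ᵐ z ∂volume.restrict U, Dom (K z) (u z) (a z)) ∧
      ∫⁻ z in U, ENNReal.ofReal (a z) ≤ ENNReal.ofReal C ∧
      ∀ t, Tst U t → ∫ z in U, u z ⬝ᵥ vd2 t z = -∫ z in U, f z ⬝ᵥ t z := by
  obtain ⟨A, hA, hA'⟩ := hrzp_sqrt n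
  have hK : ContinuousOn K U := continuousOn_pi.2 fun i => continuousOn_pi.2 fun j =>
    (h.smooth i j).continuousOn
  have hB : ContinuousOn (fun z => A (K z)) U := hA.comp hK fun z hz => h.pos z hz
  obtain ⟨F, hF⟩ : ∃ F : (ℂ → Fin n → ℂ) → ℂ → E n,
      ∀ t z, F t z = WithLp.toLp 2 (A (K z) *ᵥ vd2 t z) := ⟨_, fun _ _ => rfl⟩
  have F1 : ∀ t, Tst U t → ContinuousOn (F t) U := fun t ht => by
    rw [show F t = _ from funext (hF t)]
    exact (PiLp.continuous_toLp 2 _).comp_continuousOn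
      ((continuous_fst.matrix_mulVec continuous_snd).comp_continuousOn
        (hB.prodMk (rz_vd2_cont ht).continuousOn))
  have F2 : ∀ t, Tst U t → MemLp (F t) 2 (volume.restrict U) := fun t ht =>
    (memLp_two_iff_integrable_sq_norm ((F1 t ht).aestronglyMeasurable hU.measurableSet)).2
      (rz_int hU ht ((F1 t ht).norm.pow 2) fun z hz => by simp [hF, rz_vd2_zero hz])
  have F3 : ∀ t, ∀ z ∈ U, ‖F t z‖ ^ 2 = (hf (K z) (vd2 t z) (vd2 t z)).re := fun t z hz => by
    rw [rz_norm, hF, hf, star_mulVec, ← dotProduct_mulVec, mulVec_mulVec, hA' _ (h.pos z hz)]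
  have I1 : ∀ t, Tst U t → IntegrableOn (fun z => f z ⬝ᵥ t z) U := fun t ht =>
    rz_int hU ht ((continuous_fst.dotProduct continuous_snd).comp_continuousOn
      (hf'.prodMk (continuous_pi fun i => (ht.smooth i).continuous).continuousOn)) fun z hz => by
        rw [image_eq_zero_of_notMem_tsupport hz, dotProduct_zero]
  let S : Submodule ℂ (Lp (E n) 2 (volume.restrict U) × ℂ) :=
    { carrier := {p | ∃ t, Tst U t ∧ p.1 =ᵐ[volume.restrict U] F t ∧
        p.2 = -∫ z in U, f z ⬝ᵥ t z}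
      add_mem' := by
        rintro p q ⟨s, hs, s1, s2⟩ ⟨t, ht, t1, t2⟩
        refine ⟨s + t, (rz_add hs ht).1, ?_, ?_⟩
        · filter_upwards [Lp.coeFn_add p.1 q.1, s1, t1] with z z1 z2 z3
          rw [Prod.fst_add, z1, Pi.add_apply, z2, z3, hF, hF, hF, (rz_add hs ht).2, mulVec_add,
            WithLp.toLp_add]
        · rw [Prod.snd_add, s2, t2, ← neg_add, ← integral_add (I1 s hs) (I1 t ht)]
          simp only [Pi.add_apply, dotProduct_add]
      zero_mem' := by
        refine ⟨0, rz_zero U, ?_, by simp⟩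
        filter_upwards [Lp.coeFn_zero (E n) 2 (volume.restrict U)] with z z1
        rw [Prod.fst_zero, z1, hF, rz_vd2_zero (by simp)]
        simp
      smul_mem' := by
        rintro c p ⟨t, ht, t1, t2⟩
        refine ⟨c • t, (rz_smul ht c).1, ?_, ?_⟩
        · filter_upwards [Lp.coeFn_smul c p.1, t1] with z z1 z2
          rw [Prod.smul_fst, z1, Pi.smul_apply, z2, hF, hF, (rz_smul ht c).2, mulVec_smul,
            WithLp.toLp_smul]
        · rw [Prod.smul_snd, t2, smul_neg, ← integral_smul]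
          simp only [Pi.smul_apply, dotProduct_smul] }
  obtain ⟨y, y1, y2⟩ := rz_abs S (Real.sqrt_nonneg C) (by
    rintro p ⟨t, ht, t1, t2⟩
    have e : ∫ z in U, (hf (K z) (vd2 t z) (vd2 t z)).re = ‖p.1‖ ^ 2 := by
      rw [← rz_sq]
      refine integral_congr_ae ?_
      filter_upwards [t1, ae_restrict_mem hU.measurableSet] with z z1 z2
      rw [z1, F3 t z z2]
    have h1 := hb t ht
    rw [e] at h1
    rw [t2, norm_neg]
    refine (pow_le_pow_iff_left₀ (norm_nonneg _) (by positivity) two_ne_zero).1 ?_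
    rwa [mul_pow, Real.sq_sqrt hC])
  refine ⟨fun z => star ((A (K z))ᴴ *ᵥ (y z).ofLp), fun z => ‖y z‖ ^ 2, fun i => ?_,
    (Lp.aestronglyMeasurable y).norm.aemeasurable.pow_const 2, ?_, ?_, fun t ht => ?_⟩
  · refine (locallyIntegrableOn_iff hU.isLocallyClosed).2 fun k hk hc => ?_
    have h1 : IntegrableOn y k := by
      have h2 := (Lp.memLp y).restrict k
      rw [Measure.restrict_restrict_of_subset hk] at h2
      have : IsFiniteMeasure (volume.restrict k) := ⟨by simpa using hc.measure_lt_top⟩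
      exact h2.integrable one_le_two
    have e : (fun z => star ((A (K z))ᴴ *ᵥ (y z).ofLp) i) =
        fun z => ∑ j, A (K z) j i * conj (y z j) := by
      funext z
      simp [mulVec, dotProduct, mul_comm]
    rw [e]
    refine integrable_finsetSum _ fun j _ => IntegrableOn.continuousOn_mul
      ((continuousOn_pi.1 (continuousOn_pi.1 hB j) i).mono hk) ?_ hc
    exact (conjCLE : ℂ →L[ℝ] ℂ).integrable_comp
      ((EuclideanSpace.proj j : E n →L[ℂ] ℂ).integrable_comp h1)
  · filter_upwards [ae_restrict_mem hU.measurableSet] with z hz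
    refine ⟨sq_nonneg _, fun t => ?_⟩
    have h1 := sq_cs (y z).ofLp (A (K z) *ᵥ t)
    rw [← rz_norm, star_mulVec (A (K z)), ← dotProduct_mulVec _ _ (A (K z) *ᵥ t), mulVec_mulVec,
      hA' _ (h.pos z hz)] at h1
    rw [star_mulVec, conjTranspose_conjTranspose, ← dotProduct_mulVec]
    exact h1
  · rw [← ofReal_integral_eq_lintegral_ofReal
      ((memLp_two_iff_integrable_sq_norm (Lp.aestronglyMeasurable y)).1 (Lp.memLp y))
      (Eventually.of_forall fun z => sq_nonneg _), rz_sq]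
    refine ENNReal.ofReal_le_ofReal ?_
    rw [← Real.sq_sqrt hC]
    exact pow_le_pow_left₀ (norm_nonneg _) y1 2
  · have h1 := y2 ((F2 t ht).toLp, -∫ z in U, f z ⬝ᵥ t z) ⟨t, ht, (F2 t ht).coeFn_toLp, rfl⟩
    refine Eq.trans ?_ h1
    rw [L2.inner_def]
    refine integral_congr_ae ?_
    filter_upwards [(F2 t ht).coeFn_toLp] with z z1
    rw [z1, rz_inner, hF, star_mulVec, conjTranspose_conjTranspose, ← dotProduct_mulVec]

end Vale.Agent.P253
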