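import Vale.Agent.P253.Stmt

/-! Kaehler manifolds in charts and the Hartogs extension property. -/

namespace Vale.Agent.P253

open Filter Topology
open scoped ENNReal Manifold ContDiff

section

variable (A B : Type) [NormedAddCommGroup A] [NormedSpace ℂ A] [NormedAddCommGroup B]
  [NormedSpace ℂ B] {X Y : Type} [TopologicalSpace X] [ChartedSpace A X] [TopologicalSpace Y]
  [ChartedSpace B Y]

/-- The complex derivative of `f` at `x` in the direction `v`. -/
noncomputable def cder (f : A → B) (x v : A) : B := fderiv ℂ f x v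

/-- The transition maps of `X` are complex analytic. -/
def IsCMfd (X : Type) [TopologicalSpace X] [ChartedSpace A X] : Prop := IsManifold 𝓘(ℂ, A) ω X

/-- The map `f` is holomorphic on `U`. -/
def HolM (f : X → Y) (U : Set X) : Prop := MDifferentiableOn 𝓘(ℂ, A) 𝓘(ℂ, B) f U

/-- The complex differential of `f` is injective at every point. -/
def ImmM (f : X → Y) : Prop := ∀ x, Function.Injective (mfderiv 𝓘(ℂ, A) 𝓘(ℂ, B) f x)

end

variable {n : ℕ} {X : Type} [TopologicalSpace X] [ChartedSpace (E n) X]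

/-- A Kaehler metric on `X`: `G x` is the matrix of the metric in the chart at `x`, and the
matrices of two charts are related by the derivative of the transition map. -/
structure MKaehler (G : X → E n → Matrix (Fin n) (Fin n) ℂ) : Prop where
  loc : ∀ x, IsKaehler (chartAt (E n) x).target (G x)
  compat : ∀ x y p, p ∈ (chartAt (E n) x).source → p ∈ (chartAt (E n) y).source → ∀ v : E n,
    nsq (G y (chartAt (E n) y p)) (fun i => v i) = nsq (G x (chartAt (E n) x p)) fun i =>
      cder (E n) (E n) (chartAt (E n) x ∘ (chartAt (E n) y).symm) (chartAt (E n) y p) v i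

/-- Nonnegative holomorphic bisectional curvature in every chart. -/
def MNonneg (G : X → E n → Matrix (Fin n) (Fin n) ℂ) : Prop :=
  ∀ x, NonnegBisec (chartAt (E n) x).target (G x)

/-- The length of the path `γ` on `[0, 1]`. -/
noncomputable def mlen (G : X → E n → Matrix (Fin n) (Fin n) ℂ) (γ : ℝ → X) : ℝ≥0∞ :=
  ∫⁻ t in Set.Icc (0 : ℝ) 1, ENNReal.ofReal √(nsq (G (γ t) (chartAt (E n) (γ t) (γ t)))
    fun i => deriv (chartAt (E n) (γ t) ∘ γ) t i)

/-- The distance of the metric: the infimum of the lengths of `C¹` paths. -/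
noncomputable def mdist (G : X → E n → Matrix (Fin n) (Fin n) ℂ) (x y : X) : ℝ≥0∞ :=
  ⨅ (γ : ℝ → X) (_ : ContMDiffOn 𝓘(ℝ, ℝ) 𝓘(ℝ, E n) 1 γ (Set.Icc 0 1)) (_ : γ 0 = x)
    (_ : γ 1 = y), mlen G γ

/-- Every Cauchy sequence of the metric converges. -/
def MComplete (G : X → E n → Matrix (Fin n) (Fin n) ℂ) : Prop :=
  ∀ x : ℕ → X, (∀ ε : ℝ≥0∞, 0 < ε → ∃ N, ∀ k ≥ N, ∀ l ≥ N, mdist G (x k) (x l) < ε) →
    ∃ p, Tendsto x atTop (𝓝 p)

/-- The unit bidisc. -/
def bidisc : Set (E 2) := {z | ‖z 0‖ < 1 ∧ ‖z 1‖ < 1}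

/-- The Hartogs figure. -/
def hartogsFig (r : ℝ) : Set (E 2) := {z | ‖z 0‖ < 1 ∧ ‖z 1‖ < 1 ∧ (‖z 0‖ < r ∨ 1 - r < ‖z 1‖)}

/-- The Hartogs extension property: holomorphic maps from a Hartogs figure to `X` extend to the
bidisc. -/
def HartogsExt (n : ℕ) (X : Type) [TopologicalSpace X] [ChartedSpace (E n) X] : Prop :=
  ∀ r : ℝ, 0 < r → r < 1 → ∀ φ : E 2 → X, HolM (E 2) (E n) φ (hartogsFig r) →
    ∃ ψ : E 2 → X, HolM (E 2) (E n) ψ bidisc ∧ Set.EqOn ψ φ (hartogsFig r)

end Vale.Agent.P253
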