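import Vale.Agent.P253H.Defs

/-!
Transition matrices. `nsq_conj`: `nsq_eq`, `hf`, `star_vecMul`. `jm_comp`: `fderiv_comp`, `fd_JM`.
`tr_mat`: `MKaehler.compat x p p` with `fd_JM`, `nsq_conj`; two Hermitian matrices with the same `nsq`
agree (polarisation with `single a 1 + single b 1` and `single a 1 + single b I`); the determinant of
the positive definite left side is nonzero.
-/

namespace Vale.Agent.P253

open Complex Matrix Metric Set Filter Topology MeasureTheory
open scoped ContDiff ComplexConjugate ComplexOrder ENNReal Manifold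

variable {n m N : ℕ} {X : Type} [TopologicalSpace X] [ChartedSpace (E n) X]
  [IsManifold 𝓘(ℂ, E n) ω X] {G : X → E n → M n} {h : X → E N} {ψ : E m → X} {Ω : Set (E m)}

theorem nsq_conj (T : Matrix (Fin m) (Fin n) ℂ) (g : M n) (v : Fin m → ℂ) :
    nsq (T * g * Tᴴ) v = nsq g (v ᵥ* T) := by
  rw [nsq_eq, nsq_eq, hf, hf, star_star, star_star, star_vecMul, ← mulVec_mulVec, ← mulVec_mulVec,
    dotProduct_mulVec v T]

theorem jm_comp {P : E n → E N} {Q : E m → E n} {z : E m} (hP : DifferentiableAt ℂ P (Q z))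
    (hQ : DifferentiableAt ℂ Q z) : JM (P ∘ Q) z = JM Q z * JM P (Q z) := by
  ext a i
  rw [JM, Matrix.of_apply, fderiv_comp z hP hQ, ContinuousLinearMap.comp_apply, fd_JM]
  rfl

theorem jm_congr {P Q : E m → E n} {z : E m} (h : P =ᶠ[𝓝 z] Q) : JM P z = JM Q z := by
  rw [JM, JM, h.fderiv_eq]

theorem htr_ext {A B : M n} (hA : A.IsHermitian) (hB : B.IsHermitian)
    (h : ∀ v, nsq A v = nsq B v) : A = B := by
  have hD := hA.sub hB
  have h0 : ∀ t, star t ⬝ᵥ (A - B) *ᵥ t = 0 := fun t => by
    refine Complex.ext ?_ (hD.im_star_dotProduct_mulVec_self t)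
    have k := h (star t)
    rw [nsq_eq, nsq_eq, star_star, hf, hf] at k
    rw [sub_mulVec, dotProduct_sub, Complex.sub_re, k, sub_self, Complex.zero_re]
  have hP : (A - B).PosSemidef :=
    PosSemidef.of_dotProduct_mulVec_nonneg hD fun t => (h0 t).ge
  rw [← sub_eq_zero, ext_iff_mulVec]
  intro t
  rw [zero_mulVec]
  exact (hP.dotProduct_mulVec_zero_iff t).1 (h0 t)

theorem tr_mat (hG : MKaehler G) {x p : X} (hx : p ∈ (chartAt (E n) x).source) :
    G p (chartAt (E n) p p) =
      JM (chartAt (E n) x ∘ (chartAt (E n) p).symm) (chartAt (E n) p p) * G x (chartAt (E n) x p) *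
        (JM (chartAt (E n) x ∘ (chartAt (E n) p).symm) (chartAt (E n) p p))ᴴ ∧
    IsUnit (JM (chartAt (E n) x ∘ (chartAt (E n) p).symm) (chartAt (E n) p p)).det := by
  have hp := mem_chart_source (E n) p
  have h1 := (hG.loc p).pos _ ((chartAt (E n) p).map_source hp)
  have h2 := (hG.loc x).pos _ ((chartAt (E n) x).map_source hx)
  have e : G p (chartAt (E n) p p) =
      JM (chartAt (E n) x ∘ (chartAt (E n) p).symm) (chartAt (E n) p p) * G x (chartAt (E n) x p) *
        (JM (chartAt (E n) x ∘ (chartAt (E n) p).symm) (chartAt (E n) p p))ᴴ := by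
    refine htr_ext h1.isHermitian (isHermitian_mul_mul_conjTranspose _ h2.isHermitian) fun v => ?_
    have k := hG.compat x p p hx hp (WithLp.toLp 2 v)
    simp only [cder, fd_JM] at k
    rw [nsq_conj]
    exact k
  refine ⟨e, isUnit_iff_ne_zero.2 fun h0 => h1.det_pos.ne' ?_⟩
  rw [e, det_mul, det_mul, h0, zero_mul, zero_mul]

end Vale.Agent.P253
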